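import Vale.Agent.Lib.P121.Defs

open MeasureTheory Set
open scoped ENNReal

namespace Vale.Agent.Lib.P121

variable {α : Type*} [MeasurableSpace α]

lemma lintegral_add3 {β : Type*} [MeasurableSpace β] (ν : Measure β) (f g h : β → ℝ≥0∞)
    (hg : Measurable g) (hh : Measurable h) :
    ∫⁻ x, (f x + g x + h x) ∂ν = ∫⁻ x, f x ∂ν + ∫⁻ x, g x ∂ν + ∫⁻ x, h x ∂ν := by
  rw [lintegral_add_right _ hh, lintegral_add_right _ hg]

/-- Abstract non-existence criterion.  `v` is a (shifted) dual potential which is tight for the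
coupling `π0`; every contact configuration which meets `B2 ∪ B3` consists of one point in each of
`B1, B2, B3`, the point of `B1` being a function of each of the two others; and `B2`, `B3` carry
only the fraction `θ < 1` of the mass of `B1`.  Then the Kantorovich value is finite and no
optimal Monge plan exists. -/
theorem no_optimal_monge
    (c : α × α × α → ℝ≥0∞) (hc : Measurable c)
    (μ : Measure α) [IsProbabilityMeasure μ]
    (v : α → ℝ≥0∞) (hv : Measurable v) (V : ℝ≥0∞) (hV : V ≠ ⊤) (hvV : ∀ x, v x ≤ V)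
    (M : ℝ≥0∞) (hM : M ≠ ⊤)
    (K : Set α) (hK : MeasurableSet K) (hμK : μ Kᶜ = 0)
    (hdual : ∀ x ∈ K, ∀ y ∈ K, ∀ z ∈ K, v x + v y + v z ≤ c (x, y, z) + M)
    (π0 : Measure (α × α × α)) (hπ0 : π0 ∈ Couplings3 μ)
    (hπ0c : ∫⁻ p, c p ∂π0 + M ≤ 3 * ∫⁻ x, v x ∂μ)
    (B1 B2 B3 : Set α) (hB1 : MeasurableSet B1) (hB2 : MeasurableSet B2) (hB3 : MeasurableSet B3)
    (h12 : Disjoint B1 B2) (h13 : Disjoint B1 B3) (h23 : Disjoint B2 B3)
    (G2 G3 : α → α) (hG2 : Measurable G2) (hG3 : Measurable G3)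
    (hstruct : ∀ x ∈ K, ∀ y ∈ K, ∀ z ∈ K, v x + v y + v z = c (x, y, z) + M →
      (x ∈ B2 ∪ B3 ∨ y ∈ B2 ∪ B3 ∨ z ∈ B2 ∪ B3) →
      ∃ a b d, (a ∈ B1 ∧ b ∈ B2 ∧ d ∈ B3 ∧ G2 b = a ∧ G3 d = a) ∧
        ((x, y, z) = (a, b, d) ∨ (x, y, z) = (a, d, b) ∨ (x, y, z) = (b, a, d) ∨
         (x, y, z) = (b, d, a) ∨ (x, y, z) = (d, a, b) ∨ (x, y, z) = (d, b, a)))
    (θ : ℝ≥0∞) (hθ0 : θ ≠ 0) (hθ1 : θ < 1) (hμB1 : μ B1 ≠ 0)
    (hθ2 : ∀ W, MeasurableSet W → W ⊆ B1 → μ (B2 ∩ G2 ⁻¹' W) = θ * μ W)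
    (hθ3 : ∀ W, MeasurableSet W → W ⊆ B1 → μ (B3 ∩ G3 ⁻¹' W) = θ * μ W) :
    kantVal c μ < ⊤ ∧ ¬ ∃ T₂ T₃, IsOptimalMonge c μ T₂ T₃ := by
  classical
  have hKae : ∀ᵐ x ∂μ, x ∈ K := by
    rw [ae_iff]
    exact hμK
  have hIv : ∫⁻ x, v x ∂μ ≤ V := by
    calc ∫⁻ x, v x ∂μ ≤ ∫⁻ _, V ∂μ := lintegral_mono hvV
      _ = V := by simp
  have hIvtop : 3 * ∫⁻ x, v x ∂μ ≠ ⊤ :=
    ENNReal.mul_ne_top (by norm_num) (ne_top_of_le_ne_top hV hIv)
  -- Step 1: weak duality
  have hwd : ∀ π ∈ Couplings3 μ, 3 * ∫⁻ x, v x ∂μ ≤ ∫⁻ p, c p ∂π + M := by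
    intro π hπ
    obtain ⟨h1, h2, h3⟩ := hπ
    have m1 : Measurable (fun p : α × α × α => p.1) := measurable_fst
    have m2 : Measurable (fun p : α × α × α => p.2.1) := measurable_fst.comp measurable_snd
    have m3 : Measurable (fun p : α × α × α => p.2.2) := measurable_snd.comp measurable_snd
    have i1 : ∫⁻ p, v p.1 ∂π = ∫⁻ x, v x ∂μ := by
      conv_rhs => rw [← h1]
      rw [lintegral_map hv m1]
    have i2 : ∫⁻ p, v p.2.1 ∂π = ∫⁻ x, v x ∂μ := by
      conv_rhs => rw [← h2]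
      rw [lintegral_map hv m2]
    have i3 : ∫⁻ p, v p.2.2 ∂π = ∫⁻ x, v x ∂μ := by
      conv_rhs => rw [← h3]
      rw [lintegral_map hv m3]
    have huniv : π univ = 1 := by
      have h := measure_univ (μ := μ)
      rw [← h1, Measure.map_apply m1 MeasurableSet.univ] at h
      simpa using h
    have a1 : ∀ᵐ p ∂π, p.1 ∈ K := by
      have := hKae
      rw [← h1] at this
      exact (ae_map_iff m1.aemeasurable hK).1 this
    have a2 : ∀ᵐ p ∂π, p.2.1 ∈ K := by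
      have := hKae
      rw [← h2] at this
      exact (ae_map_iff m2.aemeasurable hK).1 this
    have a3 : ∀ᵐ p ∂π, p.2.2 ∈ K := by
      have := hKae
      rw [← h3] at this
      exact (ae_map_iff m3.aemeasurable hK).1 this
    calc 3 * ∫⁻ x, v x ∂μ = ∫⁻ p, (v p.1 + v p.2.1 + v p.2.2) ∂π := by
          rw [lintegral_add3 π (fun p => v p.1) (fun p => v p.2.1) (fun p => v p.2.2)
            (hv.comp m2) (hv.comp m3), i1, i2, i3]
          ring
      _ ≤ ∫⁻ p, (c p + M) ∂π := by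
          refine lintegral_mono_ae ?_
          filter_upwards [a1, a2, a3] with p p1 p2 p3
          exact hdual _ p1 _ p2 _ p3
      _ = ∫⁻ p, c p ∂π + M := by
          rw [lintegral_add_right _ measurable_const, lintegral_const, huniv, mul_one]
  -- Step 2: value
  have hle0 : kantVal c μ ≤ ∫⁻ p, c p ∂π0 := iInf₂_le π0 hπ0
  have hkM_le : kantVal c μ + M ≤ 3 * ∫⁻ x, v x ∂μ := (add_le_add_left hle0 M).trans hπ0c
  have hfin : kantVal c μ < ⊤ :=
    lt_of_le_of_lt (le_self_add.trans hkM_le) (lt_top_iff_ne_top.2 hIvtop)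
  have hge : 3 * ∫⁻ x, v x ∂μ ≤ kantVal c μ + M := by
    rw [← tsub_le_iff_right]
    refine le_iInf₂ fun π hπ => ?_
    rw [tsub_le_iff_right]
    exact hwd π hπ
  have hval : kantVal c μ + M = 3 * ∫⁻ x, v x ∂μ := le_antisymm hkM_le hge
  refine ⟨hfin, ?_⟩
  rintro ⟨T₂, T₃, hT2, hT3, hm2, hm3, hcost⟩
  -- Step 3: contact a.e.
  have j2 : ∫⁻ x, v (T₂ x) ∂μ = ∫⁻ x, v x ∂μ := by
    conv_rhs => rw [← hm2]
    rw [lintegral_map hv hT2]
  have j3 : ∫⁻ x, v (T₃ x) ∂μ = ∫⁻ x, v x ∂μ := by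
    conv_rhs => rw [← hm3]
    rw [lintegral_map hv hT3]
  have b2 : ∀ᵐ x ∂μ, T₂ x ∈ K := by
    have := hKae
    rw [← hm2] at this
    exact (ae_map_iff hT2.aemeasurable hK).1 this
  have b3 : ∀ᵐ x ∂μ, T₃ x ∈ K := by
    have := hKae
    rw [← hm3] at this
    exact (ae_map_iff hT3.aemeasurable hK).1 this
  have hmeasT : Measurable (fun x => (x, T₂ x, T₃ x)) :=
    measurable_id.prodMk (hT2.prodMk hT3)
  have hsumv : ∫⁻ x, (v x + v (T₂ x) + v (T₃ x)) ∂μ = 3 * ∫⁻ x, v x ∂μ := by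
    rw [lintegral_add3 μ (fun x => v x) (fun x => v (T₂ x)) (fun x => v (T₃ x))
      (hv.comp hT2) (hv.comp hT3), j2, j3]
    ring
  have hsumc : ∫⁻ x, (c (x, T₂ x, T₃ x) + M) ∂μ = 3 * ∫⁻ x, v x ∂μ := by
    rw [lintegral_add_right _ measurable_const, lintegral_const, measure_univ, mul_one, hcost, hval]
  have hcontact : ∀ᵐ x ∂μ, v x + v (T₂ x) + v (T₃ x) = c (x, T₂ x, T₃ x) + M := by
    refine ae_eq_of_ae_le_of_lintegral_le ?_ (by rw [hsumv]; exact hIvtop)
      ((hc.comp hmeasT).add measurable_const).aemeasurable (by rw [hsumv, hsumc])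
    filter_upwards [hKae, b2, b3] with x x1 x2 x3
    exact hdual _ x1 _ x2 _ x3
  -- Step 4: the counting identity
  set A : Set α := B1 ∩ T₂ ⁻¹' (B2 ∪ B3) with hA
  have hAmeas : MeasurableSet A := hB1.inter (hT2 (hB2.union hB3))
  have hn12 : ∀ x, x ∈ B1 → x ∉ B2 := fun x h1 h2 => (Set.disjoint_left.1 h12) h1 h2
  have hn13 : ∀ x, x ∈ B1 → x ∉ B3 := fun x h1 h2 => (Set.disjoint_left.1 h13) h1 h2
  have hn23 : ∀ x, x ∈ B2 → x ∉ B3 := fun x h1 h2 => (Set.disjoint_left.1 h23) h1 h2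
  have hcount : ∀ W, MeasurableSet W → W ⊆ B1 → μ (A ∩ W) = θ * μ W := by
    intro W hW hWB
    set W2 : Set α := B2 ∩ G2 ⁻¹' W with hW2
    set W3 : Set α := B3 ∩ G3 ⁻¹' W with hW3
    have hW2m : MeasurableSet W2 := hB2.inter (hG2 hW)
    have hW3m : MeasurableSet W3 := hB3.inter (hG3 hW)
    have hpt : ∀ᵐ x ∂μ, W2.indicator (fun _ => (1 : ℝ≥0∞)) x
        + W2.indicator (fun _ => (1 : ℝ≥0∞)) (T₂ x) + W2.indicator (fun _ => (1 : ℝ≥0∞)) (T₃ x)
        = W2.indicator (fun _ => (1 : ℝ≥0∞)) x + W3.indicator (fun _ => (1 : ℝ≥0∞)) x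
          + (A ∩ W).indicator (fun _ => (1 : ℝ≥0∞)) x := by
      filter_upwards [hKae, b2, b3, hcontact] with x x1 x2 x3 hx
      by_cases hmeet : (x ∈ B2 ∪ B3 ∨ T₂ x ∈ B2 ∪ B3 ∨ T₃ x ∈ B2 ∪ B3)
      · obtain ⟨a, b, d, ⟨ha, hb, hd, hGb, hGd⟩, hperm⟩ := hstruct x x1 _ x2 _ x3 hx hmeet
        have haW2 : a ∉ W2 := fun h => hn12 a ha h.1
        have hdW2 : d ∉ W2 := fun h => hn23 d h.1 hd
        have haW3 : a ∉ W3 := fun h => hn13 a ha h.1
        have hbW3 : b ∉ W3 := fun h => hn23 b hb h.1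
        have hbA : b ∉ A ∩ W := fun h => hn12 b h.1.1 hb
        have hdA : d ∉ A ∩ W := fun h => hn13 d h.1.1 hd
        have hbW2 : b ∈ W2 ↔ a ∈ W := by
          simp only [hW2, Set.mem_inter_iff, Set.mem_preimage, hGb, hb, true_and]
        have hdW3 : d ∈ W3 ↔ a ∈ W := by
          simp only [hW3, Set.mem_inter_iff, Set.mem_preimage, hGd, hd, true_and]
        rcases hperm with h | h | h | h | h | h <;>
          simp only [Prod.mk.injEq] at h <;> obtain ⟨e1, e2, e3⟩ := h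
        · have haA : a ∈ A ∩ W ↔ a ∈ W := by
            simp only [hA, Set.mem_inter_iff, Set.mem_preimage, Set.mem_union]
            constructor
            · exact fun h => h.2
            · intro h
              refine ⟨⟨ha, Or.inl ?_⟩, h⟩
              rw [← e1, e2]; exact hb
          rw [e2, e3, e1]
          by_cases haW : a ∈ W
          · simp [haW2, hdW2, haW3, hbW2.2 haW, haA.2 haW]
          · simp [haW2, hdW2, haW3, mt hbW2.1 haW, mt haA.1 haW]
        · have haA : a ∈ A ∩ W ↔ a ∈ W := by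
            simp only [hA, Set.mem_inter_iff, Set.mem_preimage, Set.mem_union]
            constructor
            · exact fun h => h.2
            · intro h
              refine ⟨⟨ha, Or.inr ?_⟩, h⟩
              rw [← e1, e2]; exact hd
          rw [e2, e3, e1]
          by_cases haW : a ∈ W
          · simp [haW2, hdW2, haW3, hbW2.2 haW, haA.2 haW]
          · simp [haW2, hdW2, haW3, mt hbW2.1 haW, mt haA.1 haW]
        · rw [e2, e3, e1]
          simp [haW2, hdW2, hbW3, hbA]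
        · rw [e2, e3, e1]
          simp [haW2, hdW2, hbW3, hbA]
        · rw [e2, e3, e1]
          by_cases haW : a ∈ W
          · simp [haW2, hdW2, hdA, hbW2.2 haW, hdW3.2 haW]
          · simp [haW2, hdW2, hdA, mt hbW2.1 haW, mt hdW3.1 haW]
        · rw [e2, e3, e1]
          by_cases haW : a ∈ W
          · simp [haW2, hdW2, hdA, hbW2.2 haW, hdW3.2 haW]
          · simp [haW2, hdW2, hdA, mt hbW2.1 haW, mt hdW3.1 haW]
      · push Not at hmeet
        obtain ⟨n1, n2, n3⟩ := hmeet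
        have k1 : x ∉ W2 := fun h => n1 (Or.inl h.1)
        have k2 : T₂ x ∉ W2 := fun h => n2 (Or.inl h.1)
        have k3 : T₃ x ∉ W2 := fun h => n3 (Or.inl h.1)
        have k4 : x ∉ W3 := fun h => n1 (Or.inr h.1)
        have k5 : x ∉ A ∩ W := fun h => n2 h.1.2
        simp [k1, k2, k3, k4, k5]
    have hint := lintegral_congr_ae hpt
    have hi : ∀ S : Set α, MeasurableSet S →
        ∫⁻ x, S.indicator (fun _ => (1 : ℝ≥0∞)) x ∂μ = μ S := by
      intro S hS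
      rw [lintegral_indicator hS]
      simp
    have hi2 : ∫⁻ x, W2.indicator (fun _ => (1 : ℝ≥0∞)) (T₂ x) ∂μ = μ W2 := by
      rw [← lintegral_map (f := W2.indicator (fun _ => (1 : ℝ≥0∞)))
        (measurable_const.indicator hW2m) hT2, hm2, hi W2 hW2m]
    have hi3 : ∫⁻ x, W2.indicator (fun _ => (1 : ℝ≥0∞)) (T₃ x) ∂μ = μ W2 := by
      rw [← lintegral_map (f := W2.indicator (fun _ => (1 : ℝ≥0∞)))
        (measurable_const.indicator hW2m) hT3, hm3, hi W2 hW2m]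
    rw [lintegral_add3 μ (fun x => W2.indicator (fun _ => (1 : ℝ≥0∞)) x)
        (fun x => W2.indicator (fun _ => (1 : ℝ≥0∞)) (T₂ x))
        (fun x => W2.indicator (fun _ => (1 : ℝ≥0∞)) (T₃ x))
        ((measurable_const.indicator hW2m).comp hT2)
        ((measurable_const.indicator hW2m).comp hT3),
      lintegral_add3 μ (fun x => W2.indicator (fun _ => (1 : ℝ≥0∞)) x)
        (fun x => W3.indicator (fun _ => (1 : ℝ≥0∞)) x)
        (fun x => (A ∩ W).indicator (fun _ => (1 : ℝ≥0∞)) x)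
        (measurable_const.indicator hW3m)
        (measurable_const.indicator (hAmeas.inter hW)),
      hi W2 hW2m, hi2, hi3, hi W3 hW3m, hi _ (hAmeas.inter hW),
      hθ2 W hW hWB, hθ3 W hW hWB] at hint
    have hfinW : θ * μ W ≠ ⊤ :=
      ENNReal.mul_ne_top (ne_top_of_lt hθ1) (measure_ne_top μ W)
    have hfin2 : θ * μ W + θ * μ W ≠ ⊤ := ENNReal.add_ne_top.2 ⟨hfinW, hfinW⟩
    exact ((ENNReal.add_right_inj hfin2).1 hint).symm
  have hAA : μ A = θ * μ A := by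
    have := hcount A hAmeas Set.inter_subset_left
    rwa [Set.inter_self] at this
  have hA0 : μ A = 0 := by
    by_contra hne
    have hlt : θ * μ A < 1 * μ A :=
      ENNReal.mul_lt_mul_left hne (measure_ne_top μ A) hθ1
    rw [one_mul, ← hAA] at hlt
    exact lt_irrefl _ hlt
  have hAB : μ A = θ * μ B1 := by
    have := hcount B1 hB1 (Set.Subset.refl _)
    rwa [Set.inter_eq_left.2 (Set.inter_subset_left : A ⊆ B1)] at this
  rw [hA0] at hAB
  exact (mul_ne_zero hθ0 hμB1) hAB.symm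

end Vale.Agent.Lib.P121
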