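import Vale.Agent.Lib.P121.Setup

open MeasureTheory Set Metric
open scoped ENNReal

namespace Vale.Agent.Lib.P121

theorem Kb_disjoint {i j : Fin 5} (hij : i ≠ j) : Disjoint (Kb i) (Kb j) := by
  rw [Set.disjoint_left]
  intro x hxi hxj
  have a0 := abs_le.mp (coord_mem hxi 0)
  have a2 := abs_le.mp (coord_mem hxi 2)
  have b0 := abs_le.mp (coord_mem hxj 0)
  have b2 := abs_le.mp (coord_mem hxj 2)
  fin_cases i <;> fin_cases j <;> first | exact hij rfl | skip
  all_goals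
    simp [cen] at a0 a2 b0 b2
    norm_num at a0 a2 b0 b2
    rcases a0 with ⟨a01, a02⟩
    rcases b0 with ⟨b01, b02⟩
    rcases a2 with ⟨a21, a22⟩
    rcases b2 with ⟨b21, b22⟩
    linarith

theorem vpot_eq {j : Fin 5} {x : E3} (hx : x ∈ Kb j) : vpot x = vv j x := by
  have hd : ∀ i, i ≠ j → x ∉ Kb i := fun i hij hxi =>
    (Set.disjoint_left.mp (Kb_disjoint hij)) hxi hx
  unfold vpot
  fin_cases j
  · rw [if_pos (show x ∈ Kb 0 from hx)]; rfl
  · rw [if_neg (hd 0 (by decide)), if_pos (show x ∈ Kb 1 from hx)]; rfl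
  · rw [if_neg (hd 0 (by decide)), if_neg (hd 1 (by decide)), if_pos (show x ∈ Kb 2 from hx)]; rfl
  · rw [if_neg (hd 0 (by decide)), if_neg (hd 1 (by decide)), if_neg (hd 2 (by decide))]; rfl
  · rw [if_neg (hd 0 (by decide)), if_neg (hd 1 (by decide)), if_neg (hd 2 (by decide))]; rfl

end Vale.Agent.Lib.P121
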