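import Vale.Agent.Lib.P121.Transfer

open MeasureTheory Set Metric
open scoped ENNReal

namespace Vale.Agent.Lib.P121

theorem norm_mem_Kb {j : Fin 5} {x : E3} (hx : x ∈ Kb j) :
    ‖cen j‖ - 0.01 ≤ ‖x‖ ∧ ‖x‖ ≤ ‖cen j‖ + 0.01 := by
  have h1 : dist x (cen j) ≤ 0.01 := mem_closedBall.mp (Kb_subset_ball j hx)
  rw [dist_eq_norm] at h1
  have h2 : ‖cen j‖ ≤ ‖x‖ + ‖x - cen j‖ := by
    have := norm_sub_le x (x - cen j)
    simpa using this
  have h3 : ‖x‖ ≤ ‖cen j‖ + ‖x - cen j‖ := by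
    have := norm_add_le (cen j) (x - cen j)
    simpa using this
  constructor <;> linarith

theorem norm_cen0 : ‖cen 0‖ = 0.2182 := by
  simp only [cen, norm_vec3]
  rw [show ((0.2182 : ℝ) ^ 2 + 0 ^ 2 + 0 ^ 2) = 0.2182 ^ 2 by ring]
  exact Real.sqrt_sq (by norm_num)

theorem norm_cen1 : ‖cen 1‖ = 12 / 17 - 0.2182 := by
  simp only [cen, norm_vec3]
  rw [show ((-(12 / 17 - 0.2182) : ℝ) ^ 2 + 0 ^ 2 + 0 ^ 2) = (12 / 17 - 0.2182) ^ 2 by ring]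
  exact Real.sqrt_sq (by norm_num)

theorem norm_cen2 : ‖cen 2‖ = 12.2182 := by
  simp only [cen, norm_vec3]
  rw [show ((12.2182 : ℝ) ^ 2 + 0 ^ 2 + 0 ^ 2) = 12.2182 ^ 2 by ring]
  exact Real.sqrt_sq (by norm_num)

theorem norm_cen3 : 0.695 ≤ ‖cen 3‖ ∧ ‖cen 3‖ ≤ 0.6951 := by
  simp only [cen, norm_vec3]
  constructor
  · apply Real.le_sqrt_of_sq_le; norm_num
  · apply Real.sqrt_le_iff.mpr; constructor <;> norm_num

theorem norm_cen4 : 0.695 ≤ ‖cen 4‖ ∧ ‖cen 4‖ ≤ 0.6951 := by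
  simp only [cen, norm_vec3]
  constructor
  · apply Real.le_sqrt_of_sq_le; norm_num
  · apply Real.sqrt_le_iff.mpr; constructor <;> norm_num

theorem norm_Kb0 {x : E3} (hx : x ∈ Kb 0) : 0.2082 ≤ ‖x‖ ∧ ‖x‖ ≤ 0.2282 := by
  have := norm_mem_Kb hx
  rw [norm_cen0] at this
  constructor <;> [linarith [this.1]; linarith [this.2]]

theorem norm_Kb1 {x : E3} (hx : x ∈ Kb 1) : 0.4776 ≤ ‖x‖ ∧ ‖x‖ ≤ 0.4977 := by
  have := norm_mem_Kb hx
  rw [norm_cen1] at this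
  constructor <;> [linarith [this.1]; linarith [this.2]]

theorem norm_Kb1' {x : E3} (hx : x ∈ Kb 1) : 12 / 17 - 0.2282 ≤ ‖x‖ := by
  have := norm_mem_Kb hx
  rw [norm_cen1] at this
  linarith [this.1]

theorem norm_Kb2 {x : E3} (hx : x ∈ Kb 2) : 12.2082 ≤ ‖x‖ ∧ ‖x‖ ≤ 12.2282 := by
  have := norm_mem_Kb hx
  rw [norm_cen2] at this
  constructor <;> [linarith [this.1]; linarith [this.2]]

theorem norm_Kb3 {x : E3} (hx : x ∈ Kb 3) : 0.685 ≤ ‖x‖ ∧ ‖x‖ ≤ 0.7051 := by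
  have := norm_mem_Kb hx
  have h := norm_cen3
  constructor <;> [linarith [this.1, h.1]; linarith [this.2, h.2]]

theorem norm_Kb4 {x : E3} (hx : x ∈ Kb 4) : 0.685 ≤ ‖x‖ ∧ ‖x‖ ≤ 0.7051 := by
  have := norm_mem_Kb hx
  have h := norm_cen4
  constructor <;> [linarith [this.1, h.1]; linarith [this.2, h.2]]

theorem F2_val : F2 = 93925 / 46656 := by
  unfold F2 P0 R0; norm_num

theorem F3_val : F3 = 613 / 46656 := by
  unfold F3 P0 R0; norm_num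

theorem genv_le {t : ℝ} (ht : t ∈ Ifam) (ρ : ℝ) :
    genv ρ ≤ ENNReal.ofReal ((Gv t - c1) / 2 - K4v t * ρ / 2 + 2) :=
  iInf₂_le t ht

theorem genv_le_ub {r : ℝ} (hr : 0.685 ≤ r) : genv (r ^ 2) ≤ ENNReal.ofReal (0.9544 + 2) := by
  refine (genv_le mid_mem _).trans (ENNReal.ofReal_le_ofReal ?_)
  have h1 := Gv_mid
  have h2 := K4v_mid
  have h3 : (0.685 : ℝ) ^ 2 ≤ r ^ 2 := by gcongr
  have h4 : 2.913 * (0.685 : ℝ) ^ 2 ≤ K4v 0.825 * r ^ 2 := by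
    apply mul_le_mul h2.le h3 (by norm_num) (by linarith)
  unfold c1
  norm_num at h4 ⊢
  linarith

theorem vv_le_ub {j : Fin 5} {x : E3} (hx : x ∈ Kb j) : vv j x ≤ ENNReal.ofReal (ub j + 2) := by
  fin_cases j
  · have := norm_Kb0 hx
    apply ENNReal.ofReal_le_ofReal
    simp only [ub, c1]
    linarith [this.1]
  · have := norm_Kb1' hx
    apply ENNReal.ofReal_le_ofReal
    simp only [ub, c2, F2_val]
    linarith
  · have := norm_Kb2 hx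
    apply ENNReal.ofReal_le_ofReal
    simp only [ub, c3, F3_val]
    linarith [this.1]
  · exact genv_le_ub (norm_Kb3 hx).1
  · exact genv_le_ub (norm_Kb4 hx).1

end Vale.Agent.Lib.P121
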