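import Vale.Agent.Lib.P121.Patterns

open MeasureTheory Set Metric
open scoped ENNReal

namespace Vale.Agent.Lib.P121

/-- the parameter domain -/
noncomputable def Dpar : Set E3 :=
  {p | p 0 ∈ Ifam ∧ |p 1| ≤ 1 ∧ |p 2| ≤ 0.1 ∧ ∀ j, X j p ∈ closedBall (cen j) 0.01}

theorem continuous_X (j : Fin 5) : Continuous (X j) := by
  have h1 := continuous_qv
  have h2 := continuous_hv
  have h3 := continuous_bv
  unfold X
  apply continuous_sph
  · fin_cases j <;> simp only [Ac] <;> fun_prop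
  · fin_cases j <;> simp only [Bc] <;> fun_prop

theorem isClosed_Dpar : IsClosed Dpar := by
  have e : Dpar = {p : E3 | p 0 ∈ Ifam} ∩ ({p : E3 | |p 1| ≤ 1} ∩ ({p : E3 | |p 2| ≤ 0.1} ∩
      ⋂ j, (X j) ⁻¹' closedBall (cen j) 0.01)) := by
    ext p
    simp [Dpar]
  rw [e]
  have hc : ∀ k : Fin 3, Continuous (fun p : E3 => p k) := fun k => by fun_prop
  refine IsClosed.inter ?_ (IsClosed.inter ?_ (IsClosed.inter ?_ ?_))
  · exact (isClosed_Icc (a := (0.82 : ℝ)) (b := 0.83)).preimage (hc 0)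
  · exact isClosed_le (hc 1).abs continuous_const
  · exact isClosed_le (hc 2).abs continuous_const
  · exact isClosed_iInter fun j => isClosed_closedBall.preimage (continuous_X j)

theorem measurableSet_Dpar : MeasurableSet Dpar := isClosed_Dpar.measurableSet

theorem X0_eq (p : E3) : X 0 p = qv (p 0) • nvec (p 1) (p 2) := by
  simp [X, sph, Ac, Bc]

theorem X1_eq (p : E3) : X 1 p = (-(P0 - qv (p 0))) • nvec (p 1) (p 2) := by
  simp [X, sph, Ac, Bc]

theorem X2_eq (p : E3) : X 2 p = (R0 + qv (p 0)) • nvec (p 1) (p 2) := by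
  simp [X, sph, Ac, Bc]

theorem X3_eq (p : E3) :
    X 3 p = (-hv (p 0)) • nvec (p 1) (p 2) + bv (p 0) • mvec (p 1) (p 2) := by
  simp [X, sph, Ac, Bc]

theorem X4_eq (p : E3) :
    X 4 p = (-hv (p 0)) • nvec (p 1) (p 2) + (-bv (p 0)) • mvec (p 1) (p 2) := by
  simp [X, sph, Ac, Bc]

theorem norm_sq_comb (a b u v : ℝ) : ‖a • nvec u v + b • mvec u v‖ ^ 2 = a ^ 2 + b ^ 2 := by
  rw [norm_add_sq_real, norm_smul, norm_smul, norm_nvec, norm_mvec, inner_smul_left,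
    inner_smul_right, inner_nvec_mvec]
  simp

theorem norm_smul_nvec (a u v : ℝ) : ‖a • nvec u v‖ = |a| := by
  rw [norm_smul, norm_nvec, mul_one, Real.norm_eq_abs]

theorem dist_smul_nvec (a b u v : ℝ) : dist (a • nvec u v) (b • nvec u v) = |a - b| := by
  rw [dist_eq_norm, ← sub_smul, norm_smul_nvec]

theorem norm_X0 {p : E3} (hp : p ∈ Dpar) : ‖X 0 p‖ = qv (p 0) := by
  rw [X0_eq, norm_smul_nvec, abs_of_pos]
  linarith [(qv_bounds hp.1).1]

theorem norm_X1 {p : E3} (hp : p ∈ Dpar) : ‖X 1 p‖ = P0 - qv (p 0) := by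
  rw [X1_eq, norm_smul_nvec, abs_neg, abs_of_pos]
  have := (qv_bounds hp.1).2
  unfold P0
  norm_num at this ⊢
  linarith

theorem norm_X2 {p : E3} (hp : p ∈ Dpar) : ‖X 2 p‖ = R0 + qv (p 0) := by
  rw [X2_eq, norm_smul_nvec, abs_of_pos]
  have := (qv_bounds hp.1).1
  unfold R0
  linarith

theorem X_mem_Kb {p : E3} (hp : p ∈ Dpar) (j : Fin 5) : X j p ∈ Kb j := by
  have hb := hp.2.2.2 j
  fin_cases j
  · refine ⟨hb, ?_, ?_⟩
    · show qv 0.82 ≤ ‖X 0 p‖
      rw [norm_X0 hp]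
      exact strictMonoOn_qv.monotoneOn (by constructor <;> norm_num) hp.1 hp.1.1
    · show ‖X 0 p‖ ≤ qv 0.83
      rw [norm_X0 hp]
      exact strictMonoOn_qv.monotoneOn hp.1 (by constructor <;> norm_num) hp.1.2
  all_goals exact hb

theorem G2_X {p : E3} (hp : p ∈ Dpar) : G2 (X 1 p) = X 0 p := by
  unfold G2
  rw [norm_X1 hp, X1_eq, X0_eq, smul_smul]
  congr 1
  have h : P0 - qv (p 0) ≠ 0 := by
    have := (qv_bounds hp.1).2
    unfold P0
    intro h0
    norm_num at this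
    linarith
  field_simp
  ring

theorem G3_X {p : E3} (hp : p ∈ Dpar) : G3 (X 2 p) = X 0 p := by
  unfold G3
  rw [norm_X2 hp, X2_eq, X0_eq, smul_smul]
  congr 1
  have h : R0 + qv (p 0) ≠ 0 := by
    have := (qv_bounds hp.1).1
    unfold R0
    intro h0
    linarith
  field_simp
  ring

theorem contactA {p : E3} (hp : p ∈ Dpar) :
    vpot (X 0 p) + vpot (X 1 p) + vpot (X 2 p) = coulomb (X 0 p, X 1 p, X 2 p) + 6 := by
  have m0 := X_mem_Kb hp 0
  have m1 := X_mem_Kb hp 1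
  have m2 := X_mem_Kb hp 2
  obtain ⟨q1, q2⟩ := qv_bounds hp.1
  rw [vpot_eq m0, vpot_eq m1, vpot_eq m2,
    coulomb_eq (ne_of_mem_Kb (by decide) m0 m1) (ne_of_mem_Kb (by decide) m0 m2)
      (ne_of_mem_Kb (by decide) m1 m2)]
  simp only [vv]
  rw [norm_X0 hp, norm_X1 hp, norm_X2 hp]
  have d01 : dist (X 0 p) (X 1 p) = P0 := by
    rw [X0_eq, X1_eq, dist_smul_nvec, show qv (p 0) - -(P0 - qv (p 0)) = P0 by ring, abs_of_pos]
    unfold P0; norm_num
  have d02 : dist (X 0 p) (X 2 p) = R0 := by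
    rw [X0_eq, X2_eq, dist_smul_nvec, show qv (p 0) - (R0 + qv (p 0)) = -R0 by ring, abs_neg,
      abs_of_pos]
    unfold R0; norm_num
  have d12 : dist (X 1 p) (X 2 p) = P0 + R0 := by
    rw [X1_eq, X2_eq, dist_smul_nvec,
      show -(P0 - qv (p 0)) - (R0 + qv (p 0)) = -(P0 + R0) by ring, abs_neg, abs_of_pos]
    unfold P0 R0; norm_num
  rw [d01, d02, d12]
  rw [transfer_eq]
  · unfold c1 c2 c3 F2 F3 P0 R0
    ring
  · unfold c1; linarith
  · rw [F2_val]; unfold c2 P0; norm_num at q1 q2 ⊢; linarith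
  · rw [F3_val]; unfold c3 R0; norm_num at q1 q2 ⊢; linarith
  · unfold P0 R0; norm_num

theorem genv_rho4 {t : ℝ} (ht : t ∈ Ifam) :
    genv (rho4 t) = ENNReal.ofReal ((Gv t - c1) / 2 - K4v t * rho4 t / 2 + 2) := by
  apply le_antisymm (genv_le ht _)
  unfold genv
  refine le_iInf₂ fun t' ht' => ENNReal.ofReal_le_ofReal ?_
  have := envelope ht ht'
  linarith

theorem contactB {p : E3} (hp : p ∈ Dpar) :
    vpot (X 0 p) + vpot (X 3 p) + vpot (X 4 p) = coulomb (X 0 p, X 3 p, X 4 p) + 6 := by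
  have m0 := X_mem_Kb hp 0
  have m3 := X_mem_Kb hp 3
  have m4 := X_mem_Kb hp 4
  have ht := hp.1
  obtain ⟨q1, q2⟩ := qv_bounds ht
  obtain ⟨b1, b2⟩ := bv_bounds ht
  have ht0 := t_pos ht
  rw [vpot_eq m0, vpot_eq m3, vpot_eq m4,
    coulomb_eq (ne_of_mem_Kb (by decide) m0 m3) (ne_of_mem_Kb (by decide) m0 m4)
      (ne_of_mem_Kb (by decide) m3 m4)]
  simp only [vv]
  have n3 : ‖X 3 p‖ ^ 2 = rho4 (p 0) := by
    rw [X3_eq, norm_sq_comb]; unfold rho4; ring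
  have n4 : ‖X 4 p‖ ^ 2 = rho4 (p 0) := by
    rw [X4_eq, norm_sq_comb]; unfold rho4; ring
  rw [norm_X0 hp, n3, n4, genv_rho4 ht]
  have d03 : dist (X 0 p) (X 3 p) = p 0 := by
    have e : X 0 p - X 3 p = (qv (p 0) + hv (p 0)) • nvec (p 1) (p 2)
        + (-bv (p 0)) • mvec (p 1) (p 2) := by
      rw [X0_eq, X3_eq]; module
    have h2 : dist (X 0 p) (X 3 p) ^ 2 = (p 0) ^ 2 := by
      rw [dist_eq_norm, e, norm_sq_comb, ← leg_sq ht]; ring
    exact (pow_left_inj₀ dist_nonneg ht0.le (by norm_num)).mp h2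
  have d04 : dist (X 0 p) (X 4 p) = p 0 := by
    have e : X 0 p - X 4 p = (qv (p 0) + hv (p 0)) • nvec (p 1) (p 2)
        + (bv (p 0)) • mvec (p 1) (p 2) := by
      rw [X0_eq, X4_eq]; module
    have h2 : dist (X 0 p) (X 4 p) ^ 2 = (p 0) ^ 2 := by
      rw [dist_eq_norm, e, norm_sq_comb, ← leg_sq ht]
    exact (pow_left_inj₀ dist_nonneg ht0.le (by norm_num)).mp h2
  have d34 : dist (X 3 p) (X 4 p) = 2 * bv (p 0) := by
    have e : X 3 p - X 4 p = (0 : ℝ) • nvec (p 1) (p 2)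
        + (2 * bv (p 0)) • mvec (p 1) (p 2) := by
      rw [X3_eq, X4_eq]; module
    have h2 : dist (X 3 p) (X 4 p) ^ 2 = (2 * bv (p 0)) ^ 2 := by
      rw [dist_eq_norm, e, norm_sq_comb]; ring
    exact (pow_left_inj₀ dist_nonneg (by linarith) (by norm_num)).mp h2
  rw [d03, d04, d34]
  have hr : 0 ≤ (Gv (p 0) - c1) / 2 - K4v (p 0) * rho4 (p 0) / 2 + 2 := by
    have := q4_shift_nonneg ht (norm_nonneg (X 3 p)) (norm_Kb3 m3).2
    rwa [n3] at this
  rw [transfer_eq]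
  · have := contact_id ht
    have e : 1 / p 0 + 1 / p 0 + 1 / (2 * bv (p 0)) = 2 / p 0 + 1 / (2 * bv (p 0)) := by ring
    rw [e, ← this]
    ring
  · unfold c1; linarith
  · exact hr
  · exact hr
  · positivity

end Vale.Agent.Lib.P121
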