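import Mathlib

open MeasureTheory
open scoped ENNReal

namespace Vale.Agent.Lib.P121

/-- Euclidean three-space. -/
abbrev E3 := EuclideanSpace ℝ (Fin 3)

/-- The three-particle Coulomb cost `1/|x-y| + 1/|x-z| + 1/|y-z|` on `(R^3)^3`, with values in
`[0, +infinity]`; it equals `+infinity` as soon as two of the three points coincide. -/
noncomputable def coulomb (p : E3 × E3 × E3) : ℝ≥0∞ :=
  (edist p.1 p.2.1)⁻¹ + (edist p.1 p.2.2)⁻¹ + (edist p.2.1 p.2.2)⁻¹

/-- The set of measures on `α × α × α` whose three coordinate marginals all equal `μ`. -/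
def Couplings3 {α : Type*} [MeasurableSpace α] (μ : Measure α) : Set (Measure (α × α × α)) :=
  {π | π.map (fun p => p.1) = μ ∧ π.map (fun p => p.2.1) = μ ∧ π.map (fun p => p.2.2) = μ}

/-- The Kantorovich value: infimum of the total cost over all couplings with marginals `μ, μ, μ`. -/
noncomputable def kantVal {α : Type*} [MeasurableSpace α] (c : α × α × α → ℝ≥0∞)
    (μ : Measure α) : ℝ≥0∞ :=
  ⨅ π ∈ Couplings3 μ, ∫⁻ p, c p ∂π

/-- `(T₂, T₃)` induces an optimal Monge plan for `μ`: both maps are Borel and push `μ` to `μ`,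
and the cost of `(Id, T₂, T₃)_# μ` equals the Kantorovich value. -/
def IsOptimalMonge {α : Type*} [MeasurableSpace α] (c : α × α × α → ℝ≥0∞)
    (μ : Measure α) (T₂ T₃ : α → α) : Prop :=
  Measurable T₂ ∧ Measurable T₃ ∧ μ.map T₂ = μ ∧ μ.map T₃ = μ ∧
    ∫⁻ x, c (x, T₂ x, T₃ x) ∂μ = kantVal c μ

end Vale.Agent.Lib.P121
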