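import Vale.Agent.Lib.P121.Contact

open MeasureTheory Set Metric
open scoped ENNReal

namespace Vale.Agent.Lib.P121

theorem X_mid (j : Fin 5) :
    X j (!₂[0.825, 0, 0] : E3) = !₂[Ac j 0.825, 0, Bc j 0.825] := by
  ext i
  fin_cases i
  · have := sph_apply_zero (Ac j) (Bc j) (!₂[0.825, 0, 0] : E3)
    simpa [X] using this
  · have := sph_apply_one (Ac j) (Bc j) (!₂[0.825, 0, 0] : E3)
    simpa [X] using this
  · have := sph_apply_two (Ac j) (Bc j) (!₂[0.825, 0, 0] : E3)
    simpa [X] using this

theorem X_mid_mem (j : Fin 5) : X j (!₂[0.825, 0, 0] : E3) ∈ ball (cen j) 0.01 := by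
  rw [X_mid, mem_ball]
  have hq := abs_lt.mp qv_mid
  have hh := abs_lt.mp hv_mid
  have hb := abs_lt.mp bv_mid
  fin_cases j
  all_goals
    simp only [cen, Ac, Bc, dist_vec3, P0, R0]
    rw [Real.sqrt_lt' (by norm_num)]
    nlinarith [hq.1, hq.2, hh.1, hh.2, hb.1, hb.2]

/-- an open subset of the parameter domain -/
noncomputable def Upar : Set E3 :=
  {p | p 0 ∈ Ioo (0.82 : ℝ) 0.83 ∧ |p 1| < 1 ∧ |p 2| < 0.1 ∧ ∀ j, X j p ∈ ball (cen j) 0.01}

theorem isOpen_Upar : IsOpen Upar := by
  have hc : ∀ i : Fin 3, Continuous fun p : E3 => p i := fun i => by fun_prop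
  have h0 : IsOpen {p : E3 | p 0 ∈ Ioo (0.82 : ℝ) 0.83} := isOpen_Ioo.preimage (hc 0)
  have h1 : IsOpen {p : E3 | |p 1| < 1} := isOpen_lt (hc 1).abs continuous_const
  have h2 : IsOpen {p : E3 | |p 2| < 0.1} := isOpen_lt (hc 2).abs continuous_const
  have h3 : IsOpen {p : E3 | ∀ j, X j p ∈ ball (cen j) 0.01} := by
    have : {p : E3 | ∀ j, X j p ∈ ball (cen j) 0.01} = ⋂ j, X j ⁻¹' ball (cen j) 0.01 := by
      ext p; simp
    rw [this]
    exact isOpen_iInter_of_finite fun j => isOpen_ball.preimage (continuous_X j)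
  exact h0.inter (h1.inter (h2.inter h3))

theorem Upar_subset : Upar ⊆ Dpar := by
  rintro p ⟨h0, h1, h2, h3⟩
  exact ⟨Ioo_subset_Icc_self h0, h1.le, h2.le, fun j => ball_subset_closedBall (h3 j)⟩

theorem mid_mem_Upar : (!₂[0.825, 0, 0] : E3) ∈ Upar := by
  refine ⟨?_, ?_, ?_, X_mid_mem⟩
  · constructor <;> simp <;> norm_num
  · simp
  · simp
    norm_num

theorem volume_Dpar_pos : 0 < (volume : Measure E3) Dpar :=
  (isOpen_Upar.measure_pos volume ⟨_, mid_mem_Upar⟩).trans_le (measure_mono Upar_subset)

theorem volume_Dpar_lt_top : (volume : Measure E3) Dpar < ⊤ := by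
  have hsub : Dpar ⊆ closedBall (0 : E3) 2 := by
    rintro p ⟨h0, h1, h2, -⟩
    rw [mem_closedBall, dist_zero_right, EuclideanSpace.norm_eq]
    apply Real.sqrt_le_iff.mpr
    refine ⟨by norm_num, ?_⟩
    simp only [Fin.sum_univ_three, Real.norm_eq_abs, sq_abs]
    have a0 : (p 0) ^ 2 ≤ 1 := by
      have := h0.1; have := h0.2
      nlinarith
    have a1 : (p 1) ^ 2 ≤ 1 := by
      have := abs_le.mp h1
      nlinarith [this.1, this.2]
    have a2 : (p 2) ^ 2 ≤ 1 := by
      have := abs_le.mp h2
      nlinarith [this.1, this.2]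
    linarith
  exact (measure_mono hsub).trans_lt measure_closedBall_lt_top

theorem cos_small {β : ℝ} (hβ : |β| ≤ 0.1) : 0.995 ≤ Real.cos β := by
  have h := Real.one_sub_sq_div_two_le_cos (x := β)
  have h2 : β ^ 2 ≤ 0.01 := by
    have := abs_le.mp hβ
    nlinarith [this.1, this.2]
  linarith

theorem sin_small {β : ℝ} (hβ : |β| ≤ 0.1) : |Real.sin β| ≤ 0.1 :=
  (Real.abs_sin_le_abs).trans hβ

theorem Dpar_box : ∀ p ∈ Dpar, p 0 ∈ Ifam ∧ |p 1| ≤ 1 ∧ |p 2| ≤ 0.1 :=
  fun _ hp => ⟨hp.1, hp.2.1, hp.2.2.1⟩

theorem X_map_ac (j : Fin 5) : ((volume : Measure E3).restrict Dpar).map (X j) ≪ volume := by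
  have hz : ∀ t : ℝ, HasDerivAt (fun _ : ℝ => (0 : ℝ)) 0 t := fun t => hasDerivAt_const t 0
  fin_cases j
  · refine sph_map_ac qv (fun _ => 0) qv' (fun _ => 0) Ifam 0.1 (by norm_num) Dpar
      measurableSet_Dpar Dpar_box continuous_qv continuous_const
      (fun t ht => hasDerivAt_qv ht) (fun t _ => hz t) ?_ ?_ ?_
    · intro t ht
      have := (qv_bounds ht).1
      have := qv'_pos ht
      simp only [mul_zero, add_zero]
      positivity
    · intro s hs t ht h
      simp only at h
      have h1 := (qv_bounds hs).1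
      have h2 := (qv_bounds ht).1
      have : qv s = qv t := by nlinarith
      exact strictMonoOn_qv.injOn hs ht this
    · intro t ht β hβ
      have := (qv_bounds ht).1
      have := cos_small hβ
      simp only [zero_mul, sub_zero]
      positivity
  · refine sph_map_ac (fun t => -(P0 - qv t)) (fun _ => 0) qv' (fun _ => 0) Ifam 0.1
      (by norm_num) Dpar
      measurableSet_Dpar Dpar_box (by have := continuous_qv; fun_prop) continuous_const
      (fun t ht => ?_) (fun t _ => hz t) ?_ ?_ ?_
    · have h := ((hasDerivAt_qv ht).const_sub P0).neg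
      rw [neg_neg] at h
      exact h
    · intro t ht
      have h1 := (qv_bounds ht).2
      have h2 := qv'_pos ht
      simp only [mul_zero, add_zero]
      have : P0 - qv t > 0 := by unfold P0; linarith
      have h3 : (P0 - qv t) * qv' t > 0 := by positivity
      intro h
      linarith
    · intro s hs t ht h
      simp only at h
      have h1 := (qv_bounds hs).2
      have h2 := (qv_bounds ht).2
      have h3 : P0 - qv s > 0 := by unfold P0; linarith
      have h4 : P0 - qv t > 0 := by unfold P0; linarith
      have : qv s = qv t := by nlinarith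
      exact strictMonoOn_qv.injOn hs ht this
    · intro t ht β hβ
      have h1 := (qv_bounds ht).2
      have h2 := cos_small hβ
      have h3 : P0 - qv t > 0 := by unfold P0; linarith
      simp only [zero_mul, sub_zero]
      have h4 : (P0 - qv t) * Real.cos β > 0 := by positivity
      intro h
      linarith
  · refine sph_map_ac (fun t => R0 + qv t) (fun _ => 0) qv' (fun _ => 0) Ifam 0.1
      (by norm_num) Dpar
      measurableSet_Dpar Dpar_box (by have := continuous_qv; fun_prop) continuous_const
      (fun t ht => ?_) (fun t _ => hz t) ?_ ?_ ?_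
    · exact (hasDerivAt_qv ht).const_add R0
    · intro t ht
      have h1 := (qv_bounds ht).1
      have h2 := qv'_pos ht
      simp only [mul_zero, add_zero]
      have : R0 + qv t > 0 := by unfold R0; linarith
      positivity
    · intro s hs t ht h
      simp only at h
      have h1 := (qv_bounds hs).1
      have h2 := (qv_bounds ht).1
      have h3 : R0 + qv s > 0 := by unfold R0; linarith
      have h4 : R0 + qv t > 0 := by unfold R0; linarith
      have : qv s = qv t := by nlinarith
      exact strictMonoOn_qv.injOn hs ht this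
    · intro t ht β hβ
      have h1 := (qv_bounds ht).1
      have h2 := cos_small hβ
      have h3 : R0 + qv t > 0 := by unfold R0; linarith
      simp only [zero_mul, sub_zero]
      positivity
  · refine sph_map_ac (fun t => -hv t) bv (fun t => -hv' t) bv' Ifam 0.1
      (by norm_num) Dpar
      measurableSet_Dpar Dpar_box continuous_hv.neg continuous_bv
      (fun t ht => (hasDerivAt_hv ht).neg) (fun t ht => hasDerivAt_bv ht) ?_ ?_ ?_
    · intro t ht
      have := rho4'_neg ht
      intro h
      nlinarith
    · intro s hs t ht h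
      simp only at h
      apply strictAntiOn_rho4.injOn hs ht
      unfold rho4
      nlinarith
    · intro t ht β hβ
      have h1 := hv_bounds ht
      have h2 := bv_bounds ht
      have h3 := cos_small hβ
      have h4 := abs_le.mp (sin_small hβ)
      intro h
      nlinarith [h1.1, h2.1, h2.2, h4.1, h4.2]
  · refine sph_map_ac (fun t => -hv t) (fun t => -bv t) (fun t => -hv' t) (fun t => -bv' t)
      Ifam 0.1 (by norm_num) Dpar
      measurableSet_Dpar Dpar_box continuous_hv.neg continuous_bv.neg
      (fun t ht => (hasDerivAt_hv ht).neg) (fun t ht => (hasDerivAt_bv ht).neg) ?_ ?_ ?_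
    · intro t ht
      have := rho4'_neg ht
      intro h
      nlinarith
    · intro s hs t ht h
      simp only at h
      apply strictAntiOn_rho4.injOn hs ht
      unfold rho4
      nlinarith
    · intro t ht β hβ
      have h1 := hv_bounds ht
      have h2 := bv_bounds ht
      have h3 := cos_small hβ
      have h4 := abs_le.mp (sin_small hβ)
      intro h
      nlinarith [h1.1, h2.1, h2.2, h4.1, h4.2]

theorem antitone_genv : Antitone genv := by
  intro a b hab
  unfold genv
  refine iInf₂_mono fun t ht => ENNReal.ofReal_le_ofReal ?_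
  have := (K4v_le ht).1
  have : K4v t * a ≤ K4v t * b := by gcongr
  linarith

theorem measurable_genv_norm : Measurable fun x : E3 => genv (‖x‖ ^ 2) :=
  antitone_genv.measurable.comp (measurable_norm.pow_const 2)

theorem measurable_vpot : Measurable vpot := by
  unfold vpot
  refine Measurable.ite (measurableSet_Kb 0) ?_ (Measurable.ite (measurableSet_Kb 1) ?_
    (Measurable.ite (measurableSet_Kb 2) ?_ measurable_genv_norm))
  · simp only [vv]
    fun_prop
  · simp only [vv]
    fun_prop
  · simp only [vv]
    fun_prop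

theorem vpot_le (x : E3) : vpot x ≤ 10 := by
  have h10 : (10 : ℝ≥0∞) = ENNReal.ofReal 10 := by
    rw [ENNReal.ofReal_ofNat]
  have hn := norm_nonneg x
  unfold vpot
  rw [h10]
  split_ifs
  · apply ENNReal.ofReal_le_ofReal
    unfold c1
    linarith
  · apply ENNReal.ofReal_le_ofReal
    rw [F2_val]
    unfold c2
    linarith
  · apply ENNReal.ofReal_le_ofReal
    rw [F3_val]
    unfold c3
    linarith
  · refine (genv_le mid_mem _).trans (ENNReal.ofReal_le_ofReal ?_)
    have h1 := Gv_mid
    have h2 := K4v_mid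
    have h3 : 0 ≤ K4v 0.825 * ‖x‖ ^ 2 := by
      have : 0 ≤ K4v 0.825 := by linarith
      positivity
    unfold c1
    linarith

end Vale.Agent.Lib.P121
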