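import Vale.Agent.Lib.P121.FamilyAlg

open Set

namespace Vale.Agent.Lib.P121

/-! ### calculus half (helper57) -/

theorem continuous_yv : Continuous yv := by
  unfold yv
  fun_prop

theorem yv_nonneg (t : ℝ) : 0 ≤ yv t := Real.sqrt_nonneg _

theorem W_pos (t : ℝ) : 0 < 1 + 4 * yv t ^ 3 := by
  have := yv_nonneg t
  positivity

theorem continuous_qv : Continuous qv := by
  unfold qv
  exact (continuous_pow 3).div (by have := continuous_yv; fun_prop) (fun t => (W_pos t).ne')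

theorem continuous_hv : Continuous hv := by
  unfold hv
  have h1 := continuous_yv
  have h2 := continuous_qv
  fun_prop

theorem continuous_bv : Continuous bv := by
  unfold bv
  have h1 := continuous_yv
  fun_prop

theorem hasDerivAt_yv {t : ℝ} (ht : t ∈ Ifam) : HasDerivAt yv (-2 * t ^ 3 / yv t) t := by
  have hy := (yv_bounds ht).1
  have hsq := yv_sq ht
  have h1 : HasDerivAt (fun s : ℝ => 1 - s ^ 4) (-(4 * t ^ 3)) t := by
    simpa using ((hasDerivAt_pow 4 t).const_sub 1)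
  have hne : (1 - t ^ 4 : ℝ) ≠ 0 := by
    rw [← hsq]; positivity
  have h2 := h1.sqrt hne
  have : (-(4 * t ^ 3) / (2 * Real.sqrt (1 - t ^ 4))) = -2 * t ^ 3 / yv t := by
    unfold yv
    have : Real.sqrt (1 - t ^ 4) ≠ 0 := by
      have := hy; unfold yv at this; positivity
    field_simp
    ring
  rw [this] at h2
  exact h2


theorem t_pos {t : ℝ} (ht : t ∈ Ifam) : 0 < t := by
  have := ht.1
  norm_num at this
  linarith

theorem hasDerivAt_qv {t : ℝ} (ht : t ∈ Ifam) : HasDerivAt qv (qv' t) t := by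
  have hy := (yv_bounds ht).1
  have hy0 : yv t ≠ 0 := by positivity
  have hW := (W_pos t).ne'
  have h1 := hasDerivAt_yv ht
  have h2 : HasDerivAt (fun s => 1 + 4 * yv s ^ 3) (4 * (3 * yv t ^ 2 * (-2 * t ^ 3 / yv t))) t := by
    simpa using ((h1.pow 3).const_mul 4).const_add 1
  have h3 := (hasDerivAt_pow 3 t).div h2 hW
  have : qv' t = ((3 : ℕ) * t ^ (3 - 1) * (1 + 4 * yv t ^ 3)
      - t ^ 3 * (4 * (3 * yv t ^ 2 * (-2 * t ^ 3 / yv t)))) / (1 + 4 * yv t ^ 3) ^ 2 := by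
    unfold qv'
    congr 1
    field_simp
    push_cast
    ring
  rw [this]
  exact h3

theorem hasDerivAt_hv {t : ℝ} (ht : t ∈ Ifam) : HasDerivAt hv (hv' t) t := by
  have hy := (yv_bounds ht).1
  have hy0 : yv t ≠ 0 := by positivity
  have h1 := hasDerivAt_yv ht
  have h2 : HasDerivAt (fun s => 4 * yv s ^ 3) (4 * (3 * yv t ^ 2 * (-2 * t ^ 3 / yv t))) t := by
    simpa using ((h1.pow 3).const_mul 4)
  have h3 := h2.mul (hasDerivAt_qv ht)
  have : hv' t = 4 * (3 * yv t ^ 2 * (-2 * t ^ 3 / yv t)) * qv t + 4 * yv t ^ 3 * qv' t := by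
    unfold hv'
    field_simp
    ring
  rw [this]
  exact h3

theorem hasDerivAt_bv {t : ℝ} (ht : t ∈ Ifam) : HasDerivAt bv (bv' t) t := by
  have hy := (yv_bounds ht).1
  have hy0 : yv t ≠ 0 := by positivity
  have h1 := hasDerivAt_yv ht
  have h3 := (hasDerivAt_id t).mul h1
  have : bv' t = 1 * yv t + id t * (-2 * t ^ 3 / yv t) := by
    unfold bv'
    simp only [id]
    field_simp
    ring
  rw [this]
  exact h3

theorem qv'_pos {t : ℝ} (ht : t ∈ Ifam) : 0 < qv' t := by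
  have hy := (yv_bounds ht).1
  have ht0 := t_pos ht
  have hy0 : 0 < yv t := by linarith
  unfold qv'
  positivity


/-- the polynomial inequality behind `rho4'_neg` -/
theorem rho4_poly_neg {y : ℝ} (hy1 : 0.7248 < y) (hy2 : y < 0.7402) :
    48 * (1 - y ^ 2) * y ^ 6 * (1 + 4 * y ^ 3) - 96 * (1 - y ^ 2) ^ 2 * y ^ 4
      + (y ^ 2 - 2 * (1 - y ^ 2)) * (1 + 4 * y ^ 3) ^ 3 < 0 := by
  have hy0 : 0 < y := by linarith
  have p2l : (0.7248 : ℝ) ^ 2 ≤ y ^ 2 := by gcongr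
  have p2u : y ^ 2 ≤ (0.7402 : ℝ) ^ 2 := by gcongr
  have p3l : (0.7248 : ℝ) ^ 3 ≤ y ^ 3 := by gcongr
  have p4u : y ^ 4 ≤ (0.7402 : ℝ) ^ 4 := by gcongr
  have p5l : (0.7248 : ℝ) ^ 5 ≤ y ^ 5 := by gcongr
  have p5u : y ^ 5 ≤ (0.7402 : ℝ) ^ 5 := by gcongr
  norm_num at p2l p2u p3l p4u p5l p5u
  have a1 : 1 - y ^ 2 ≤ 0.4747 := by linarith
  have a1' : 0 ≤ 1 - y ^ 2 := by linarith
  have a2 : y ^ 4 ≤ 0.3002 := by linarith
  have a3 : 3 * y ^ 2 + 4 * y ^ 5 - 2 ≤ 0.5325 := by linarith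
  have a3' : 0 ≤ 3 * y ^ 2 + 4 * y ^ 5 - 2 := by linarith
  have hA : (1 - y ^ 2) * y ^ 4 * (3 * y ^ 2 + 4 * y ^ 5 - 2) ≤ 0.4747 * 0.3002 * 0.5325 :=
    mul_le_mul (mul_le_mul a1 a2 (by positivity) (by norm_num)) a3 a3' (by norm_num)
  have b1 : (0.3563 : ℝ) ≤ 2 - 3 * y ^ 2 := by linarith
  have b2 : (2.523 : ℝ) ≤ 1 + 4 * y ^ 3 := by linarith
  have b3 : (2.523 : ℝ) ^ 3 ≤ (1 + 4 * y ^ 3) ^ 3 := by gcongr
  have hB : (0.3563 : ℝ) * 2.523 ^ 3 ≤ (2 - 3 * y ^ 2) * (1 + 4 * y ^ 3) ^ 3 :=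
    mul_le_mul b1 b3 (by norm_num) (by linarith)
  have key : 48 * (1 - y ^ 2) * y ^ 6 * (1 + 4 * y ^ 3) - 96 * (1 - y ^ 2) ^ 2 * y ^ 4
      + (y ^ 2 - 2 * (1 - y ^ 2)) * (1 + 4 * y ^ 3) ^ 3
      = 48 * ((1 - y ^ 2) * y ^ 4 * (3 * y ^ 2 + 4 * y ^ 5 - 2))
        - (2 - 3 * y ^ 2) * (1 + 4 * y ^ 3) ^ 3 := by ring
  rw [key]
  norm_num at hA hB
  linarith

theorem rho4'_neg {t : ℝ} (ht : t ∈ Ifam) : hv t * hv' t + bv t * bv' t < 0 := by
  obtain ⟨hy1, hy2⟩ := yv_bounds ht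
  have ht0 := t_pos ht
  have hsq := yv_sq ht
  have hW := W_pos t
  have hy0 : yv t ≠ 0 := by positivity
  have ht4 : t ^ 4 = 1 - yv t ^ 2 := by linarith
  have e : hv t * hv' t + bv t * bv' t
      = t * (48 * t ^ 4 * yv t ^ 6 * (1 + 4 * yv t ^ 3) - 96 * (t ^ 4) ^ 2 * yv t ^ 4
        + (yv t ^ 2 - 2 * t ^ 4) * (1 + 4 * yv t ^ 3) ^ 3) / (1 + 4 * yv t ^ 3) ^ 3 := by
    unfold hv hv' bv bv' qv' qv
    field_simp
    ring
  rw [e, ht4]
  apply div_neg_of_neg_of_pos _ (by positivity)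
  exact mul_neg_of_pos_of_neg ht0 (rho4_poly_neg hy1 hy2)


theorem interior_Ifam_subset : interior Ifam ⊆ Ifam := interior_subset

theorem strictMonoOn_qv : StrictMonoOn qv Ifam := by
  apply strictMonoOn_of_deriv_pos (convex_Icc _ _) continuous_qv.continuousOn
  intro t ht
  rw [(hasDerivAt_qv (interior_Ifam_subset ht)).deriv]
  exact qv'_pos (interior_Ifam_subset ht)

theorem hasDerivAt_rho4 {t : ℝ} (ht : t ∈ Ifam) :
    HasDerivAt rho4 (2 * (hv t * hv' t + bv t * bv' t)) t := by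
  have h1 := (hasDerivAt_hv ht).pow 2
  have h2 := (hasDerivAt_bv ht).pow 2
  have h3 := h1.add h2
  have : 2 * (hv t * hv' t + bv t * bv' t)
      = (2 : ℕ) * hv t ^ (2 - 1) * hv' t + (2 : ℕ) * bv t ^ (2 - 1) * bv' t := by
    push_cast
    ring
  rw [this]
  exact h3

theorem continuous_rho4 : Continuous rho4 := by
  unfold rho4
  have h1 := continuous_hv
  have h2 := continuous_bv
  fun_prop

theorem strictAntiOn_rho4 : StrictAntiOn rho4 Ifam := by
  apply strictAntiOn_of_deriv_neg (convex_Icc _ _) continuous_rho4.continuousOn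
  intro t ht
  rw [(hasDerivAt_rho4 (interior_Ifam_subset ht)).deriv]
  have := rho4'_neg (interior_Ifam_subset ht)
  linarith

/-- derivative of `K4v` -/
noncomputable def K4v' (t : ℝ) : ℝ :=
  3 / (2 * yv t ^ 5) - 3 * (1 + 4 * yv t ^ 3) / (4 * yv t ^ 3 * t ^ 4)

/-- derivative of `Gv` -/
noncomputable def Gv' (t : ℝ) : ℝ := -3 / t ^ 2 - 3 * bv' t / (4 * bv t ^ 2) + qv' t

theorem hasDerivAt_K4v {t : ℝ} (ht : t ∈ Ifam) : HasDerivAt K4v (K4v' t) t := by
  have hy := (yv_bounds ht).1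
  have hy0 : yv t ≠ 0 := by positivity
  have ht0 := (t_pos ht).ne'
  have h1 := hasDerivAt_yv ht
  have h2 : HasDerivAt (fun s => 4 * yv s ^ 3) (4 * (3 * yv t ^ 2 * (-2 * t ^ 3 / yv t))) t := by
    simpa using ((h1.pow 3).const_mul 4)
  have h3 : HasDerivAt (fun s => 1 + 1 / (4 * yv s ^ 3))
      ((0 * (4 * yv t ^ 3) - 1 * (4 * (3 * yv t ^ 2 * (-2 * t ^ 3 / yv t)))) / (4 * yv t ^ 3) ^ 2) t :=
    (((hasDerivAt_const t (1 : ℝ)).div h2 (by positivity)).const_add 1)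
  have h4 := h3.div (hasDerivAt_pow 3 t) (by positivity)
  have : K4v' t = (((0 * (4 * yv t ^ 3) - 1 * (4 * (3 * yv t ^ 2 * (-2 * t ^ 3 / yv t))))
      / (4 * yv t ^ 3) ^ 2) * t ^ 3 - (1 + 1 / (4 * yv t ^ 3)) * ((3 : ℕ) * t ^ (3 - 1)))
      / (t ^ 3) ^ 2 := by
    unfold K4v'
    push_cast
    field_simp
    ring
  rw [this]
  exact h4

theorem hasDerivAt_Gv {t : ℝ} (ht : t ∈ Ifam) : HasDerivAt Gv (Gv' t) t := by
  have hy := (yv_bounds ht).1
  have hy0 : yv t ≠ 0 := by positivity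
  have ht0 := (t_pos ht).ne'
  have hb0 : bv t ≠ 0 := by unfold bv; positivity
  have h1 : HasDerivAt (fun s : ℝ => 3 / s) ((0 * t - 3 * 1) / t ^ 2) t :=
    (hasDerivAt_const t (3 : ℝ)).div (hasDerivAt_id t) ht0
  have h2 : HasDerivAt (fun s : ℝ => 3 / (4 * bv s)) ((0 * (4 * bv t) - 3 * (4 * bv' t)) / (4 * bv t) ^ 2) t :=
    (hasDerivAt_const t (3 : ℝ)).div ((hasDerivAt_bv ht).const_mul 4) (by positivity)
  have h3 := (h1.add h2).add (hasDerivAt_qv ht)
  have e1 : Gv = fun s => 3 / s + 3 / (4 * bv s) + qv s := by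
    funext s
    unfold Gv bv
    rw [mul_assoc]
  have e2 : Gv' t = (0 * t - 3 * 1) / t ^ 2 + (0 * (4 * bv t) - 3 * (4 * bv' t)) / (4 * bv t) ^ 2
      + qv' t := by
    unfold Gv'
    field_simp
    ring
  rw [e1, e2]
  exact h3

theorem Gv'_eq {t : ℝ} (ht : t ∈ Ifam) : Gv' t = K4v' t * rho4 t := by
  have hy := (yv_bounds ht).1
  have hy0 : yv t ≠ 0 := by positivity
  have ht0 := (t_pos ht).ne'
  have hW := (W_pos t).ne'
  have hsq := yv_sq ht
  have key : Gv' t - K4v' t * rho4 t = 3 / t ^ 2 * (t ^ 4 + yv t ^ 2 - 1) := by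
    unfold Gv' K4v' rho4 hv bv bv' qv' qv
    field_simp
    ring
  have : t ^ 4 + yv t ^ 2 - 1 = 0 := by linarith
  rw [this, mul_zero] at key
  linarith

theorem K4v'_neg {t : ℝ} (ht : t ∈ Ifam) : K4v' t < 0 := by
  obtain ⟨hy1, hy2⟩ := yv_bounds ht
  have hy0 : 0 < yv t := by linarith
  have ht0 := t_pos ht
  have hsq := yv_sq ht
  have ht4 : t ^ 4 = 1 - yv t ^ 2 := by linarith
  have e : K4v' t = 3 * (2 * t ^ 4 - (1 + 4 * yv t ^ 3) * yv t ^ 2) / (4 * yv t ^ 5 * t ^ 4) := by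
    unfold K4v'
    field_simp
    ring
  rw [e]
  apply div_neg_of_neg_of_pos _ (by positivity)
  rw [ht4]
  have p2l : (0.7248 : ℝ) ^ 2 ≤ yv t ^ 2 := by gcongr
  have p5l : (0.7248 : ℝ) ^ 5 ≤ yv t ^ 5 := by gcongr
  norm_num at p2l p5l
  nlinarith


theorem hasDerivAt_envelope_aux {t s : ℝ} (hs : s ∈ Ifam) :
    HasDerivAt (fun x => Gv x - K4v x * rho4 t) (K4v' s * (rho4 s - rho4 t)) s := by
  have h := (hasDerivAt_Gv hs).sub ((hasDerivAt_K4v hs).mul_const (rho4 t))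
  have e : K4v' s * (rho4 s - rho4 t) = Gv' s - K4v' s * rho4 t := by
    rw [Gv'_eq hs]; ring
  rw [e]
  exact h

/-- the envelope inequality: the affine functions `ρ ↦ Gv t' - K4v t' * ρ` all lie above their
lower envelope, which touches the `t`-th one at `ρ = rho4 t`. -/
theorem envelope {t t' : ℝ} (ht : t ∈ Ifam) (ht' : t' ∈ Ifam) :
    Gv t - K4v t * rho4 t ≤ Gv t' - K4v t' * rho4 t := by
  rcases le_total t t' with h | h
  · have hsub : Icc t t' ⊆ Ifam := Icc_subset_Icc ht.1 ht'.2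
    have hmono : MonotoneOn (fun x => Gv x - K4v x * rho4 t) (Icc t t') := by
      apply monotoneOn_of_deriv_nonneg (convex_Icc _ _)
      · exact fun s hs => (hasDerivAt_envelope_aux (hsub hs)).continuousAt.continuousWithinAt
      · exact fun s hs =>
          (hasDerivAt_envelope_aux (hsub (interior_subset hs))).differentiableAt.differentiableWithinAt
      · intro s hs
        have hs' := interior_subset hs
        rw [(hasDerivAt_envelope_aux (hsub hs')).deriv]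
        have h1 := (K4v'_neg (hsub hs')).le
        have h2 : rho4 s ≤ rho4 t := strictAntiOn_rho4.antitoneOn ht (hsub hs') hs'.1
        exact mul_nonneg_of_nonpos_of_nonpos h1 (by linarith)
    exact hmono (left_mem_Icc.mpr h) (right_mem_Icc.mpr h) h
  · have hsub : Icc t' t ⊆ Ifam := Icc_subset_Icc ht'.1 ht.2
    have hanti : AntitoneOn (fun x => Gv x - K4v x * rho4 t) (Icc t' t) := by
      apply antitoneOn_of_deriv_nonpos (convex_Icc _ _)
      · exact fun s hs => (hasDerivAt_envelope_aux (hsub hs)).continuousAt.continuousWithinAt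
      · exact fun s hs =>
          (hasDerivAt_envelope_aux (hsub (interior_subset hs))).differentiableAt.differentiableWithinAt
      · intro s hs
        have hs' := interior_subset hs
        rw [(hasDerivAt_envelope_aux (hsub hs')).deriv]
        have h1 := (K4v'_neg (hsub hs')).le
        have h2 : rho4 t ≤ rho4 s := strictAntiOn_rho4.antitoneOn (hsub hs') ht hs'.2
        exact mul_nonpos_of_nonpos_of_nonneg h1 (by linarith)
    exact hanti (left_mem_Icc.mpr h) (right_mem_Icc.mpr h) h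

end Vale.Agent.Lib.P121
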