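import Vale.Agent.Lib.P121.FamilyDefs

open Set

namespace Vale.Agent.Lib.P121

/-! Algebraic identities and numerical bounds for the family. -/

lemma yv_between {t a b ylo yhi : ℝ} (h0 : 0 ≤ a) (ha : a ≤ t) (hb : t ≤ b)
    (_hylo : 0 ≤ ylo) (hlo : ylo ^ 2 ≤ 1 - b ^ 4) (hyhi : 0 ≤ yhi) (hhi : 1 - a ^ 4 ≤ yhi ^ 2) :
    ylo ≤ yv t ∧ yv t ≤ yhi := by
  have ht0 : 0 ≤ t := h0.trans ha
  have h1 : t ^ 4 ≤ b ^ 4 := by gcongr
  have h2 : a ^ 4 ≤ t ^ 4 := by gcongr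
  constructor
  · unfold yv
    apply Real.le_sqrt_of_sq_le
    linarith
  · unfold yv
    rw [Real.sqrt_le_left hyhi]
    linarith

lemma Ifam_pos {t : ℝ} (ht : t ∈ Ifam) : 0 < t := by
  have := ht.1
  norm_num at this
  linarith

theorem yv_bounds {t : ℝ} (ht : t ∈ Ifam) : 0.7248 < yv t ∧ yv t < 0.7402 := by
  obtain ⟨h1, h2⟩ := yv_between (a := 0.82) (b := 0.83) (ylo := 0.72485) (yhi := 0.74019)
    (by norm_num) ht.1 ht.2 (by norm_num) (by norm_num) (by norm_num) (by norm_num)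
  constructor
  · linarith
  · linarith

lemma yv_pos {t : ℝ} (ht : t ∈ Ifam) : 0 < yv t := by
  have := (yv_bounds ht).1
  linarith

lemma yv_sq {t : ℝ} (ht : t ∈ Ifam) : yv t ^ 2 = 1 - t ^ 4 := by
  unfold yv
  apply Real.sq_sqrt
  have h1 : t ^ 4 ≤ (0.83 : ℝ) ^ 4 := by
    have := ht.2
    have h0 := (Ifam_pos ht).le
    gcongr
  norm_num at h1
  linarith

lemma qv_add_hv {t : ℝ} (ht : t ∈ Ifam) : qv t + hv t = t ^ 3 := by
  have hy := yv_pos ht
  unfold hv qv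
  field_simp

/-- legs have length `t` -/
theorem leg_sq {t : ℝ} (ht : t ∈ Ifam) : (qv t + hv t) ^ 2 + bv t ^ 2 = t ^ 2 := by
  rw [qv_add_hv ht]
  unfold bv
  rw [mul_pow, yv_sq ht]
  ring

/-- `K1 / 2 = 1 / q` -/
theorem K1_half {t : ℝ} (ht : t ∈ Ifam) : 1 / t ^ 3 + 4 * bv t ^ 3 / t ^ 6 = 1 / qv t := by
  have hy := yv_pos ht
  have ht0 := Ifam_pos ht
  unfold bv qv
  field_simp

/-- `K4 / 2` -/
theorem K4_half {t : ℝ} (ht : t ∈ Ifam) :
    1 / (2 * t ^ 3) + 1 / (8 * bv t ^ 3) = K4v t / 2 := by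
  have hy := yv_pos ht
  have ht0 := Ifam_pos ht
  unfold bv K4v
  field_simp
  ring

lemma K4v_mul_hv_sq {t : ℝ} (ht : t ∈ Ifam) : K4v t * hv t ^ 2 = hv t := by
  have hy := yv_pos ht
  have ht0 := Ifam_pos ht
  unfold K4v hv qv
  field_simp
  ring

lemma K4v_mul_bv_sq {t : ℝ} (ht : t ∈ Ifam) :
    K4v t * bv t ^ 2 = (1 + 4 * yv t ^ 3) / (4 * yv t * t) := by
  have hy := yv_pos ht
  have ht0 := Ifam_pos ht
  unfold K4v bv
  field_simp
  ring

/-- contact identity (virial type identity of the family configuration) -/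
theorem contact_id {t : ℝ} (ht : t ∈ Ifam) :
    Gv t - 2 * qv t - K4v t * rho4 t = 2 / t + 1 / (2 * bv t) := by
  have hy := yv_pos ht
  have ht0 := Ifam_pos ht
  have hy2 := yv_sq ht
  have h1 : hv t = t ^ 3 - qv t := by linarith [qv_add_hv ht]
  unfold rho4
  rw [mul_add, K4v_mul_hv_sq ht, K4v_mul_bv_sq ht, h1]
  unfold Gv bv
  have h2 : (1 + 4 * yv t ^ 3) / (4 * yv t * t) = 1 / (4 * yv t * t) + yv t ^ 2 / t := by
    field_simp
  rw [h2, hy2]
  field_simp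
  ring

theorem qv_bounds {t : ℝ} (ht : t ∈ Ifam) : 0.21 < qv t ∧ qv t < 0.227 := by
  obtain ⟨hy1, hy2⟩ := yv_bounds ht
  have hy := yv_pos ht
  have ht0 := Ifam_pos ht
  have h1 : (0.82 : ℝ) ^ 3 ≤ t ^ 3 := by
    have := ht.1
    gcongr
  have h2 : t ^ 3 ≤ (0.83 : ℝ) ^ 3 := by
    have := ht.2
    gcongr
  have h3 : (0.7248 : ℝ) ^ 3 ≤ yv t ^ 3 := by gcongr
  have h4 : yv t ^ 3 ≤ (0.7402 : ℝ) ^ 3 := by gcongr
  norm_num at h1 h2 h3 h4
  unfold qv
  constructor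
  · rw [lt_div_iff₀ (by positivity)]
    linarith
  · rw [div_lt_iff₀ (by positivity)]
    linarith

lemma hv_between {t a b ylo yhi : ℝ} (ht : t ∈ Ifam) (ha : a ≤ t) (hb : t ≤ b)
    (h0 : 0 ≤ a) (hylo : 0 ≤ ylo) (hlo : ylo ^ 2 ≤ 1 - b ^ 4) (hyhi : 0 ≤ yhi)
    (hhi : 1 - a ^ 4 ≤ yhi ^ 2) (h1 : 0.34 < 4 * ylo ^ 3 * (a ^ 3 - 0.34))
    (h2 : 4 * yhi ^ 3 * (b ^ 3 - 0.346) < 0.346) : 0.34 < hv t ∧ hv t < 0.346 := by
  obtain ⟨hy1, hy2⟩ := yv_between h0 ha hb hylo hlo hyhi hhi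
  have hy := yv_pos ht
  have ht0 := Ifam_pos ht
  have e1 : a ^ 3 ≤ t ^ 3 := by gcongr
  have e2 : t ^ 3 ≤ b ^ 3 := by gcongr
  have e3 : ylo ^ 3 ≤ yv t ^ 3 := by gcongr
  have e4 : yv t ^ 3 ≤ yhi ^ 3 := by gcongr
  have e5 : (0.82 : ℝ) ^ 3 ≤ t ^ 3 := by
    have := ht.1
    gcongr
  norm_num at e5
  have hylo3 : 0 ≤ ylo ^ 3 := by positivity
  have hy3 : 0 < yv t ^ 3 := by positivity
  have hform : hv t = 4 * yv t ^ 3 * t ^ 3 / (1 + 4 * yv t ^ 3) := by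
    unfold hv qv
    field_simp
  rw [hform]
  constructor
  · rw [lt_div_iff₀ (by positivity)]
    have ha3 : 0 ≤ a ^ 3 - 0.34 := by
      by_contra hneg
      push Not at hneg
      have : 4 * ylo ^ 3 * (a ^ 3 - 0.34) ≤ 0 :=
        mul_nonpos_of_nonneg_of_nonpos (by positivity) hneg.le
      linarith
    have k1 : 4 * ylo ^ 3 * (a ^ 3 - 0.34) ≤ 4 * yv t ^ 3 * (t ^ 3 - 0.34) := by
      apply mul_le_mul (by linarith) (by linarith) ha3 (by positivity)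
    nlinarith
  · rw [div_lt_iff₀ (by positivity)]
    have k1 : 4 * yv t ^ 3 * (t ^ 3 - 0.346) ≤ 4 * yhi ^ 3 * (b ^ 3 - 0.346) := by
      apply mul_le_mul (by linarith) (by linarith) (by linarith) (by positivity)
    nlinarith

theorem hv_bounds {t : ℝ} (ht : t ∈ Ifam) : 0.34 < hv t ∧ hv t < 0.346 := by
  rcases le_total t 0.8213 with h1 | h1
  · exact hv_between ht (a := 0.82) (b := 0.8213) (ylo := 0.7382439) (yhi := 0.7401881) ht.1 h1 (by norm_num) (by norm_num) (by norm_num) (by norm_num) (by norm_num) (by norm_num) (by norm_num)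
  rcases le_total t 0.8233 with h2 | h2
  · exact hv_between ht (a := 0.8213) (b := 0.8233) (ylo := 0.7352251) (yhi := 0.7382442) h1 h2 (by norm_num) (by norm_num) (by norm_num) (by norm_num) (by norm_num) (by norm_num) (by norm_num)
  rcases le_total t 0.826 with h3 | h3
  · exact hv_between ht (a := 0.8233) (b := 0.826) (ylo := 0.7310945) (yhi := 0.7352254) h2 h3 (by norm_num) (by norm_num) (by norm_num) (by norm_num) (by norm_num) (by norm_num) (by norm_num)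
  rcases le_total t 0.8278 with h4 | h4
  · exact hv_between ht (a := 0.826) (b := 0.8278) (ylo := 0.7283051) (yhi := 0.7310948) h3 h4 (by norm_num) (by norm_num) (by norm_num) (by norm_num) (by norm_num) (by norm_num) (by norm_num)
  rcases le_total t 0.829 with h5 | h5
  · exact hv_between ht (a := 0.8278) (b := 0.829) (ylo := 0.7264293) (yhi := 0.7283054) h4 h5 (by norm_num) (by norm_num) (by norm_num) (by norm_num) (by norm_num) (by norm_num) (by norm_num)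
  rcases le_total t 0.8299 with h6 | h6
  · exact hv_between ht (a := 0.829) (b := 0.8299) (ylo := 0.725014) (yhi := 0.7264296) h5 h6 (by norm_num) (by norm_num) (by norm_num) (by norm_num) (by norm_num) (by norm_num) (by norm_num)
  exact hv_between ht (a := 0.8299) (b := 0.83) (ylo := 0.7248562) (yhi := 0.7250143) h6 ht.2 (by norm_num) (by norm_num) (by norm_num) (by norm_num) (by norm_num) (by norm_num) (by norm_num)

theorem bv_bounds {t : ℝ} (ht : t ∈ Ifam) : 0.6 < bv t ∧ bv t < 0.608 := by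
  have hy := yv_pos ht
  have ht0 := Ifam_pos ht
  have hb0 : 0 < bv t := by unfold bv; positivity
  have hsq : bv t ^ 2 = t ^ 2 - (t ^ 2) ^ 3 := by
    unfold bv
    rw [mul_pow, yv_sq ht]
    ring
  have hu1 : (0.82 : ℝ) ^ 2 ≤ t ^ 2 := by
    have := ht.1
    gcongr
  have hu2 : t ^ 2 ≤ (0.83 : ℝ) ^ 2 := by
    have := ht.2
    gcongr
  norm_num at hu1 hu2
  set u : ℝ := t ^ 2 with hu
  constructor
  · apply lt_of_pow_lt_pow_left₀ 2 hb0.le
    rw [hsq]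
    nlinarith [mul_nonneg (sub_nonneg.2 hu2) (sub_nonneg.2 hu1), mul_nonneg (sub_nonneg.2 hu2)
      (show (0 : ℝ) ≤ u ^ 2 + 0.6889 * u + 0.6889 ^ 2 - 1 by nlinarith)]
  · apply lt_of_pow_lt_pow_left₀ 2 (by norm_num)
    rw [hsq]
    nlinarith [mul_nonneg (sub_nonneg.2 hu1)
      (show (0 : ℝ) ≤ u ^ 2 + 0.6724 * u + 0.6724 ^ 2 - 1 by nlinarith)]

/-! numerical values at the centre `t = 0.825` of the parameter interval -/

lemma mid_mem : (0.825 : ℝ) ∈ Ifam := by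
  constructor <;> norm_num

lemma yv_mid : 0.732631973 ≤ yv 0.825 ∧ yv 0.825 ≤ 0.732631976 :=
  yv_between (a := 0.825) (b := 0.825) (by norm_num) le_rfl le_rfl (by norm_num) (by norm_num)
    (by norm_num) (by norm_num)

lemma yv_mid_cube : 0.39323992 ≤ yv 0.825 ^ 3 ∧ yv 0.825 ^ 3 ≤ 0.39323993 := by
  obtain ⟨h1, h2⟩ := yv_mid
  have hy := yv_pos mid_mem
  generalize yv 0.825 = y at h1 h2 hy ⊢
  have e3 : (0.732631973 : ℝ) ^ 3 ≤ y ^ 3 := by gcongr
  have e4 : y ^ 3 ≤ (0.732631976 : ℝ) ^ 3 := by gcongr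
  norm_num at e3 e4
  constructor
  · norm_num
    linarith
  · norm_num
    linarith

lemma qv_mid' : 0.218237 < qv 0.825 ∧ qv 0.825 < 0.218238 := by
  obtain ⟨h1, h2⟩ := yv_mid_cube
  unfold qv
  generalize yv 0.825 = y at h1 h2 ⊢
  have hpos : 0 < 1 + 4 * y ^ 3 := by linarith
  constructor
  · rw [lt_div_iff₀ hpos]
    norm_num at h1 h2 ⊢
    linarith
  · rw [div_lt_iff₀ hpos]
    norm_num at h1 h2 ⊢
    linarith

theorem qv_mid : |qv 0.825 - 0.2182| < 0.0002 := by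
  obtain ⟨h1, h2⟩ := qv_mid'
  rw [abs_lt]
  constructor <;> linarith

theorem hv_mid : |hv 0.825 - 0.3433| < 0.0002 := by
  obtain ⟨h1, h2⟩ := qv_mid'
  have h3 := qv_add_hv mid_mem
  generalize qv 0.825 = q at h1 h2 h3
  generalize hv 0.825 = h at h3 ⊢
  rw [abs_lt]
  norm_num at h1 h2 h3 ⊢
  constructor <;> linarith

theorem bv_mid : |bv 0.825 - 0.6044| < 0.0002 := by
  obtain ⟨h1, h2⟩ := yv_mid
  unfold bv
  generalize yv 0.825 = y at h1 h2 ⊢
  rw [abs_lt]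
  constructor <;> linarith

theorem Gv_mid : Gv 0.825 < 5.0956 := by
  obtain ⟨h1, h2⟩ := yv_mid
  obtain ⟨h3, h4⟩ := qv_mid'
  have hy := yv_pos mid_mem
  unfold Gv
  generalize qv 0.825 = q at h3 h4 ⊢
  generalize yv 0.825 = y at h1 h2 hy ⊢
  have h5 : 3 / (4 * 0.825 * y) < 1.24086 := by
    rw [div_lt_iff₀ (by positivity)]
    linarith
  have h6 : (3 : ℝ) / 0.825 < 3.63637 := by norm_num
  linarith

theorem K4v_mid : 2.913 < K4v 0.825 := by
  obtain ⟨h1, h2⟩ := yv_mid_cube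
  have hy := yv_pos mid_mem
  unfold K4v
  generalize yv 0.825 = y at h1 h2 hy ⊢
  rw [lt_div_iff₀ (by positivity)]
  have h5 : 0.63574 < 1 / (4 * y ^ 3) := by
    rw [lt_div_iff₀ (by positivity)]
    linarith
  have h6 : (2.913 : ℝ) * 0.825 ^ 3 < 1.63570 := by norm_num
  linarith

end Vale.Agent.Lib.P121
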