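import Mathlib

open Set

namespace Vale.Agent.Lib.P121

/-! One-parameter family of isosceles triangles (legs `t`, half base `bv t`, apex at distance
`qv t` from the origin, base points at height `-hv t`), on which the force on the apex is `2`. -/

noncomputable def yv (t : ℝ) : ℝ := Real.sqrt (1 - t ^ 4)
noncomputable def qv (t : ℝ) : ℝ := t ^ 3 / (1 + 4 * yv t ^ 3)
noncomputable def hv (t : ℝ) : ℝ := 4 * yv t ^ 3 * qv t
noncomputable def bv (t : ℝ) : ℝ := t * yv t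
noncomputable def K4v (t : ℝ) : ℝ := (1 + 1 / (4 * yv t ^ 3)) / t ^ 3
noncomputable def Gv (t : ℝ) : ℝ := 3 / t + 3 / (4 * t * yv t) + qv t
noncomputable def rho4 (t : ℝ) : ℝ := hv t ^ 2 + bv t ^ 2

noncomputable def qv' (t : ℝ) : ℝ :=
  (3 * t ^ 2 * (1 + 4 * yv t ^ 3) + 24 * t ^ 6 * yv t) / (1 + 4 * yv t ^ 3) ^ 2
noncomputable def hv' (t : ℝ) : ℝ := -24 * t ^ 3 * yv t * qv t + 4 * yv t ^ 3 * qv' t
noncomputable def bv' (t : ℝ) : ℝ := yv t - 2 * t ^ 4 / yv t

/-- the parameter interval -/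
def Ifam : Set ℝ := Icc (0.82 : ℝ) 0.83

end Vale.Agent.Lib.P121
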