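import Vale.Agent.Lib.P121.Abstract

open MeasureTheory Set
open scoped ENNReal

namespace Vale.Agent.Lib.P121

variable {α Ω : Type*} [MeasurableSpace α] [MeasurableSpace Ω]

/-- the mixture `(1/6) (2 X₀#λ + X₁#λ + X₂#λ + X₃#λ + X₄#λ)` -/
noncomputable def fiveMix (lam : Measure Ω) (X : Fin 5 → Ω → α) : Measure α :=
  (6 : ℝ≥0∞)⁻¹ • (lam.map (X 0) + lam.map (X 0) + lam.map (X 1) + lam.map (X 2) + lam.map (X 3)
    + lam.map (X 4))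

lemma fiveMix_apply (lam : Measure Ω) (X : Fin 5 → Ω → α) (hX : ∀ j, Measurable (X j))
    {A : Set α} (hA : MeasurableSet A) :
    fiveMix lam X A = (6 : ℝ≥0∞)⁻¹ * (lam (X 0 ⁻¹' A) + lam (X 0 ⁻¹' A) + lam (X 1 ⁻¹' A)
      + lam (X 2 ⁻¹' A) + lam (X 3 ⁻¹' A) + lam (X 4 ⁻¹' A)) := by
  unfold fiveMix
  simp only [Measure.smul_apply, Measure.add_apply, smul_eq_mul, Measure.map_apply (hX _) hA]

lemma lintegral_fiveMix (lam : Measure Ω) (X : Fin 5 → Ω → α) (hX : ∀ j, Measurable (X j))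
    {f : α → ℝ≥0∞} (hf : Measurable f) :
    ∫⁻ x, f x ∂(fiveMix lam X) = (6 : ℝ≥0∞)⁻¹ * (∫⁻ p, f (X 0 p) ∂lam + ∫⁻ p, f (X 0 p) ∂lam
      + ∫⁻ p, f (X 1 p) ∂lam + ∫⁻ p, f (X 2 p) ∂lam + ∫⁻ p, f (X 3 p) ∂lam
      + ∫⁻ p, f (X 4 p) ∂lam) := by
  unfold fiveMix
  simp only [lintegral_smul_measure, lintegral_add_measure, smul_eq_mul, lintegral_map hf (hX _)]

/-- Measure theoretic assembly: five blobs, two types of contact configurations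
`(X 0, X 1, X 2)` and `(X 0, X 3, X 4)`, each with weight one half. -/
theorem five_blob_no_monge
    (c : α × α × α → ℝ≥0∞) (hc : Measurable c)
    (hrot : ∀ x y z, c (y, z, x) = c (x, y, z))
    (lam : Measure Ω) [IsProbabilityMeasure lam]
    (X : Fin 5 → Ω → α) (hX : ∀ j, Measurable (X j))
    (Kb : Fin 5 → Set α) (hKb : ∀ j, MeasurableSet (Kb j))
    (hdisj : ∀ i j, i ≠ j → Disjoint (Kb i) (Kb j))
    (hXK : ∀ j, ∀ᵐ p ∂lam, X j p ∈ Kb j)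
    (v : α → ℝ≥0∞) (hv : Measurable v) (V : ℝ≥0∞) (hV : V ≠ ⊤) (hvV : ∀ x, v x ≤ V)
    (M : ℝ≥0∞) (hM : M ≠ ⊤)
    (hdual : ∀ x ∈ ⋃ j, Kb j, ∀ y ∈ ⋃ j, Kb j, ∀ z ∈ ⋃ j, Kb j,
      v x + v y + v z ≤ c (x, y, z) + M)
    (hA : ∀ᵐ p ∂lam, v (X 0 p) + v (X 1 p) + v (X 2 p) = c (X 0 p, X 1 p, X 2 p) + M)
    (hB : ∀ᵐ p ∂lam, v (X 0 p) + v (X 3 p) + v (X 4 p) = c (X 0 p, X 3 p, X 4 p) + M)
    (G2 G3 : α → α) (hG2 : Measurable G2) (hG3 : Measurable G3)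
    (hG2X : ∀ᵐ p ∂lam, G2 (X 1 p) = X 0 p) (hG3X : ∀ᵐ p ∂lam, G3 (X 2 p) = X 0 p)
    (hstruct : ∀ x ∈ ⋃ j, Kb j, ∀ y ∈ ⋃ j, Kb j, ∀ z ∈ ⋃ j, Kb j,
      v x + v y + v z = c (x, y, z) + M →
      (x ∈ Kb 1 ∪ Kb 2 ∨ y ∈ Kb 1 ∪ Kb 2 ∨ z ∈ Kb 1 ∪ Kb 2) →
      ∃ a b d, (a ∈ Kb 0 ∧ b ∈ Kb 1 ∧ d ∈ Kb 2 ∧ G2 b = a ∧ G3 d = a) ∧
        ((x, y, z) = (a, b, d) ∨ (x, y, z) = (a, d, b) ∨ (x, y, z) = (b, a, d) ∨
         (x, y, z) = (b, d, a) ∨ (x, y, z) = (d, a, b) ∨ (x, y, z) = (d, b, a))) :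
    IsProbabilityMeasure (fiveMix lam X) ∧ kantVal c (fiveMix lam X) < ⊤ ∧
      ¬ ∃ T₂ T₃, IsOptimalMonge c (fiveMix lam X) T₂ T₃ := by
  classical
  have h6 : (6 : ℝ≥0∞)⁻¹ * 6 = 1 := ENNReal.inv_mul_cancel (by norm_num) (by norm_num)
  -- probability
  have hprob : IsProbabilityMeasure (fiveMix lam X) := by
    constructor
    rw [fiveMix_apply lam X hX MeasurableSet.univ]
    simp only [preimage_univ, measure_univ]
    have : (1 + 1 + 1 + 1 + 1 + 1 : ℝ≥0∞) = 6 := by norm_num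
    rw [this, h6]
  refine ⟨hprob, ?_⟩
  -- vanishing of the wrong blobs
  have hzero : ∀ i j : Fin 5, i ≠ j → ∀ A : Set α, A ⊆ Kb i → lam (X j ⁻¹' A) = 0 := by
    intro i j hij A hAi
    have : ∀ᵐ p ∂lam, p ∉ X j ⁻¹' A := by
      filter_upwards [hXK j] with p hp hpA
      exact (Set.disjoint_left.mp (hdisj i j hij)) (hAi hpA) hp
    exact (measure_eq_zero_iff_ae_notMem).mpr this
  have hK : MeasurableSet (⋃ j, Kb j) := MeasurableSet.iUnion hKb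
  have hμK : fiveMix lam X (⋃ j, Kb j)ᶜ = 0 := by
    rw [fiveMix_apply lam X hX hK.compl]
    have : ∀ j, lam (X j ⁻¹' (⋃ j, Kb j)ᶜ) = 0 := by
      intro j
      have : ∀ᵐ p ∂lam, p ∉ X j ⁻¹' (⋃ j, Kb j)ᶜ := by
        filter_upwards [hXK j] with p hp hpA
        exact hpA (mem_iUnion.mpr ⟨j, hp⟩)
      exact (measure_eq_zero_iff_ae_notMem).mpr this
    rw [this 0, this 1, this 2, this 3, this 4]
    simp
  -- the coupling
  let P : Fin 6 → Ω → α × α × α := ![fun p => (X 0 p, X 1 p, X 2 p), fun p => (X 1 p, X 2 p, X 0 p),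
    fun p => (X 2 p, X 0 p, X 1 p), fun p => (X 0 p, X 3 p, X 4 p), fun p => (X 3 p, X 4 p, X 0 p),
    fun p => (X 4 p, X 0 p, X 3 p)]
  have hP : ∀ i, Measurable (P i) := by
    intro i
    fin_cases i <;> exact (hX _).prodMk ((hX _).prodMk (hX _))
  set π0 : Measure (α × α × α) := (6 : ℝ≥0∞)⁻¹ • (lam.map (P 0) + lam.map (P 1) + lam.map (P 2)
    + lam.map (P 3) + lam.map (P 4) + lam.map (P 5)) with hπ0def
  have m1 : Measurable (fun p : α × α × α => p.1) := measurable_fst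
  have m2 : Measurable (fun p : α × α × α => p.2.1) := measurable_fst.comp measurable_snd
  have m3 : Measurable (fun p : α × α × α => p.2.2) := measurable_snd.comp measurable_snd
  have hmapπ : ∀ f : α × α × α → α, Measurable f → π0.map f = (6 : ℝ≥0∞)⁻¹ •
      (lam.map (f ∘ P 0) + lam.map (f ∘ P 1) + lam.map (f ∘ P 2)
        + lam.map (f ∘ P 3) + lam.map (f ∘ P 4) + lam.map (f ∘ P 5)) := by
    intro f hf
    rw [hπ0def, Measure.map_smul]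
    simp only [Measure.map_add _ _ hf, Measure.map_map hf (hP _)]
  have hπ0 : π0 ∈ Couplings3 (fiveMix lam X) := by
    refine ⟨?_, ?_, ?_⟩
    · rw [hmapπ _ m1]
      unfold fiveMix
      congr 1
      show lam.map (X 0) + lam.map (X 1) + lam.map (X 2) + lam.map (X 0) + lam.map (X 3)
        + lam.map (X 4) = _
      abel
    · rw [hmapπ _ m2]
      unfold fiveMix
      congr 1
      show lam.map (X 1) + lam.map (X 2) + lam.map (X 0) + lam.map (X 3) + lam.map (X 4)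
        + lam.map (X 0) = _
      abel
    · rw [hmapπ _ m3]
      unfold fiveMix
      congr 1
      show lam.map (X 2) + lam.map (X 0) + lam.map (X 1) + lam.map (X 4) + lam.map (X 0)
        + lam.map (X 3) = _
      abel
  -- the cost of the coupling
  set Ia := ∫⁻ p, c (X 0 p, X 1 p, X 2 p) ∂lam with hIa
  set Ib := ∫⁻ p, c (X 0 p, X 3 p, X 4 p) ∂lam with hIb
  have hcost : ∫⁻ q, c q ∂π0 = (6 : ℝ≥0∞)⁻¹ * (Ia + Ia + Ia + Ib + Ib + Ib) := by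
    rw [hπ0def]
    simp only [lintegral_smul_measure, lintegral_add_measure, smul_eq_mul, lintegral_map hc (hP _)]
    congr 1
    have e1 : ∫⁻ p, c (P 1 p) ∂lam = Ia := by
      refine lintegral_congr (fun p => ?_)
      exact hrot (X 0 p) (X 1 p) (X 2 p)
    have e2 : ∫⁻ p, c (P 2 p) ∂lam = Ia := by
      refine lintegral_congr (fun p => ?_)
      exact (hrot (X 1 p) (X 2 p) (X 0 p)).trans (hrot (X 0 p) (X 1 p) (X 2 p))
    have e4 : ∫⁻ p, c (P 4 p) ∂lam = Ib := by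
      refine lintegral_congr (fun p => ?_)
      exact hrot (X 0 p) (X 3 p) (X 4 p)
    have e5 : ∫⁻ p, c (P 5 p) ∂lam = Ib := by
      refine lintegral_congr (fun p => ?_)
      exact (hrot (X 3 p) (X 4 p) (X 0 p)).trans (hrot (X 0 p) (X 3 p) (X 4 p))
    have e0 : ∫⁻ p, c (P 0 p) ∂lam = Ia := rfl
    have e3 : ∫⁻ p, c (P 3 p) ∂lam = Ib := rfl
    rw [e0, e1, e2, e3, e4, e5]
  have hvX : ∀ j, Measurable (fun p => v (X j p)) := fun j => hv.comp (hX j)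
  have hJA : ∫⁻ p, v (X 0 p) ∂lam + ∫⁻ p, v (X 1 p) ∂lam + ∫⁻ p, v (X 2 p) ∂lam = Ia + M := by
    rw [← lintegral_add3 lam _ _ _ (hvX 1) (hvX 2), lintegral_congr_ae hA,
      lintegral_add_right _ measurable_const]
    simp only [lintegral_const, measure_univ, mul_one]
    rfl
  have hJB : ∫⁻ p, v (X 0 p) ∂lam + ∫⁻ p, v (X 3 p) ∂lam + ∫⁻ p, v (X 4 p) ∂lam = Ib + M := by
    rw [← lintegral_add3 lam _ _ _ (hvX 3) (hvX 4), lintegral_congr_ae hB,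
      lintegral_add_right _ measurable_const]
    simp only [lintegral_const, measure_univ, mul_one]
    rfl
  have hπ0c : ∫⁻ q, c q ∂π0 + M ≤ 3 * ∫⁻ x, v x ∂(fiveMix lam X) := by
    rw [hcost, lintegral_fiveMix lam X hX hv]
    have hsum : ∫⁻ p, v (X 0 p) ∂lam + ∫⁻ p, v (X 0 p) ∂lam + ∫⁻ p, v (X 1 p) ∂lam
        + ∫⁻ p, v (X 2 p) ∂lam + ∫⁻ p, v (X 3 p) ∂lam + ∫⁻ p, v (X 4 p) ∂lam
        = (Ia + M) + (Ib + M) := by
      rw [← hJA, ← hJB]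
      abel
    rw [hsum]
    have hMM : M = (6 : ℝ≥0∞)⁻¹ * (6 * M) := by rw [← mul_assoc, h6, one_mul]
    conv_lhs => rw [hMM]
    rw [← mul_add, ← mul_assoc, mul_comm (3 : ℝ≥0∞), mul_assoc]
    refine le_of_eq ?_
    congr 1
    ring
  -- masses
  have hW0 : ∀ W, MeasurableSet W → W ⊆ Kb 0 →
      fiveMix lam X W = (6 : ℝ≥0∞)⁻¹ * (2 * lam (X 0 ⁻¹' W)) := by
    intro W hW hW0
    rw [fiveMix_apply lam X hX hW, hzero 0 1 (by decide) W hW0, hzero 0 2 (by decide) W hW0,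
      hzero 0 3 (by decide) W hW0, hzero 0 4 (by decide) W hW0]
    congr 1
    ring
  have hμB1 : fiveMix lam X (Kb 0) ≠ 0 := by
    rw [hW0 _ (hKb 0) subset_rfl]
    have h1 : lam (X 0 ⁻¹' Kb 0) = 1 :=
      (prob_compl_eq_zero_iff (hX 0 (hKb 0))).mp (mem_ae_iff.mp (hXK 0))
    rw [h1]
    norm_num
  have hhalf : ∀ t : ℝ≥0∞, (6 : ℝ≥0∞)⁻¹ * t = 2⁻¹ * ((6 : ℝ≥0∞)⁻¹ * (2 * t)) := by
    intro t
    have h2 : (2 : ℝ≥0∞)⁻¹ * 2 = 1 := ENNReal.inv_mul_cancel (by norm_num) (by norm_num)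
    calc (6 : ℝ≥0∞)⁻¹ * t = (2⁻¹ * 2) * ((6 : ℝ≥0∞)⁻¹ * t) := by rw [h2, one_mul]
      _ = 2⁻¹ * ((6 : ℝ≥0∞)⁻¹ * (2 * t)) := by ring
  have hθ2 : ∀ W, MeasurableSet W → W ⊆ Kb 0 →
      fiveMix lam X (Kb 1 ∩ G2 ⁻¹' W) = 2⁻¹ * fiveMix lam X W := by
    intro W hW hW0'
    have hmeas : MeasurableSet (Kb 1 ∩ G2 ⁻¹' W) := (hKb 1).inter (hG2 hW)
    have hsub : Kb 1 ∩ G2 ⁻¹' W ⊆ Kb 1 := inter_subset_left
    rw [hW0 W hW hW0', fiveMix_apply lam X hX hmeas, hzero 1 0 (by decide) _ hsub,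
      hzero 1 2 (by decide) _ hsub, hzero 1 3 (by decide) _ hsub, hzero 1 4 (by decide) _ hsub]
    have hae : lam (X 1 ⁻¹' (Kb 1 ∩ G2 ⁻¹' W)) = lam (X 0 ⁻¹' W) := by
      refine measure_congr ?_
      filter_upwards [hXK 1, hG2X] with p hp1 hp2
      apply propext
      show (X 1 p ∈ Kb 1 ∧ G2 (X 1 p) ∈ W) ↔ X 0 p ∈ W
      rw [hp2]
      exact ⟨fun h => h.2, fun h => ⟨hp1, h⟩⟩
    rw [hae, ← hhalf]
    simp
  have hθ3 : ∀ W, MeasurableSet W → W ⊆ Kb 0 →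
      fiveMix lam X (Kb 2 ∩ G3 ⁻¹' W) = 2⁻¹ * fiveMix lam X W := by
    intro W hW hW0'
    have hmeas : MeasurableSet (Kb 2 ∩ G3 ⁻¹' W) := (hKb 2).inter (hG3 hW)
    have hsub : Kb 2 ∩ G3 ⁻¹' W ⊆ Kb 2 := inter_subset_left
    rw [hW0 W hW hW0', fiveMix_apply lam X hX hmeas, hzero 2 0 (by decide) _ hsub,
      hzero 2 1 (by decide) _ hsub, hzero 2 3 (by decide) _ hsub, hzero 2 4 (by decide) _ hsub]
    have hae : lam (X 2 ⁻¹' (Kb 2 ∩ G3 ⁻¹' W)) = lam (X 0 ⁻¹' W) := by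
      refine measure_congr ?_
      filter_upwards [hXK 2, hG3X] with p hp1 hp2
      apply propext
      show (X 2 p ∈ Kb 2 ∧ G3 (X 2 p) ∈ W) ↔ X 0 p ∈ W
      rw [hp2]
      exact ⟨fun h => h.2, fun h => ⟨hp1, h⟩⟩
    rw [hae, ← hhalf]
    simp
  exact no_optimal_monge c hc (fiveMix lam X) v hv V hV hvV M hM (⋃ j, Kb j) hK hμK hdual π0 hπ0
    hπ0c (Kb 0) (Kb 1) (Kb 2) (hKb 0) (hKb 1) (hKb 2) (hdisj 0 1 (by decide))
    (hdisj 0 2 (by decide)) (hdisj 1 2 (by decide)) G2 G3 hG2 hG3 hstruct 2⁻¹ (by norm_num)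
    (by norm_num) hμB1 hθ2 hθ3

end Vale.Agent.Lib.P121
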