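import Vale.Agent.Lib.P121.Defs

open scoped RealInnerProductSpace

namespace Vale.Agent.Lib.P121

variable {F : Type*} [NormedAddCommGroup F] [InnerProductSpace ℝ F]

/-- tangent line of `s ↦ s^(-1/2)` at `δ^2` -/
lemma tangent_sq {D δ : ℝ} (hD : 0 < D) (hδ : 0 < δ) :
    3 / (2 * δ) - D ^ 2 / (2 * δ ^ 3) ≤ 1 / D := by
  have h : 1 / D - (3 / (2 * δ) - D ^ 2 / (2 * δ ^ 3)) = (D - δ) ^ 2 * (D + 2 * δ) / (2 * δ ^ 3 * D) := by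
    field_simp
    ring
  have h2 : 0 ≤ (D - δ) ^ 2 * (D + 2 * δ) / (2 * δ ^ 3 * D) := by positivity
  linarith

/-- tangent line of `s ↦ 1/s` at `s0`, with remainder -/
lemma tangent_inv {s s0 : ℝ} (hs : 0 < s) (hs0 : 0 < s0) :
    1 / s = 2 / s0 - s / s0 ^ 2 + (s - s0) ^ 2 / (s * s0 ^ 2) := by
  field_simp
  ring

lemma norm_sq_comb3 (a b c : ℝ) (x y z : F) :
    ‖a • x + b • y + c • z‖ ^ 2 = a ^ 2 * ‖x‖ ^ 2 + b ^ 2 * ‖y‖ ^ 2 + c ^ 2 * ‖z‖ ^ 2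
      + 2 * a * b * ⟪x, y⟫ + 2 * a * c * ⟪x, z⟫ + 2 * b * c * ⟪y, z⟫ := by
  rw [← real_inner_self_eq_norm_sq, ← real_inner_self_eq_norm_sq, ← real_inner_self_eq_norm_sq,
    ← real_inner_self_eq_norm_sq]
  simp only [inner_add_left, inner_add_right, inner_smul_left, inner_smul_right,
    RCLike.conj_to_real]
  rw [real_inner_comm x y, real_inner_comm x z, real_inner_comm y z]
  ring

lemma dist_sq_eq (x y : F) : dist x y ^ 2 = ‖x‖ ^ 2 + ‖y‖ ^ 2 - 2 * ⟪x, y⟫ := by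
  rw [dist_eq_norm, norm_sub_sq_real]
  ring

/-- Triangle type: for every reference isosceles shape (legs `d`, half base `b`). -/
theorem typeB_ineq {d b : ℝ} (hd : 0 < d) (hb : 0 < b) (x y z : F)
    (hxy : x ≠ y) (hxz : x ≠ z) (hyz : y ≠ z) :
    3 / d + 3 / (4 * b) - (1 / d ^ 3 + 4 * b ^ 3 / d ^ 6) * ‖x‖ ^ 2
      - (1 / (2 * d ^ 3) + 1 / (8 * b ^ 3)) * (‖y‖ ^ 2 + ‖z‖ ^ 2)
      ≤ 1 / dist x y + 1 / dist x z + 1 / dist y z := by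
  have t1 := tangent_sq (dist_pos.mpr hxy) hd
  have t2 := tangent_sq (dist_pos.mpr hxz) hd
  have t3 := tangent_sq (dist_pos.mpr hyz) (by positivity : 0 < 2 * b)
  rw [dist_sq_eq] at t1 t2 t3
  have hN := sq_nonneg ‖(1 / d ^ 3) • x + (1 / (8 * b ^ 3)) • y + (1 / (8 * b ^ 3)) • z‖
  rw [norm_sq_comb3] at hN
  set X := ‖x‖ ^ 2
  set Y := ‖y‖ ^ 2
  set Z := ‖z‖ ^ 2
  set p := ⟪x, y⟫
  set q := ⟪x, z⟫
  set r := ⟪y, z⟫
  -- multiply hN by `4 b^3 = 1 / (2 B)`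
  have hN' : 0 ≤ 4 * b ^ 3 * ((1 / d ^ 3) ^ 2 * X + (1 / (8 * b ^ 3)) ^ 2 * Y + (1 / (8 * b ^ 3)) ^ 2 * Z
      + 2 * (1 / d ^ 3) * (1 / (8 * b ^ 3)) * p + 2 * (1 / d ^ 3) * (1 / (8 * b ^ 3)) * q
      + 2 * (1 / (8 * b ^ 3)) * (1 / (8 * b ^ 3)) * r) := by positivity
  have key : 3 / d + 3 / (4 * b) - (1 / d ^ 3 + 4 * b ^ 3 / d ^ 6) * X
      - (1 / (2 * d ^ 3) + 1 / (8 * b ^ 3)) * (Y + Z)
      + 4 * b ^ 3 * ((1 / d ^ 3) ^ 2 * X + (1 / (8 * b ^ 3)) ^ 2 * Y + (1 / (8 * b ^ 3)) ^ 2 * Z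
      + 2 * (1 / d ^ 3) * (1 / (8 * b ^ 3)) * p + 2 * (1 / d ^ 3) * (1 / (8 * b ^ 3)) * q
      + 2 * (1 / (8 * b ^ 3)) * (1 / (8 * b ^ 3)) * r)
      = (3 / (2 * d) - (X + Y - 2 * p) / (2 * d ^ 3)) + (3 / (2 * d) - (X + Z - 2 * q) / (2 * d ^ 3))
        + (3 / (2 * (2 * b)) - (Y + Z - 2 * r) / (2 * (2 * b) ^ 3)) := by
    field_simp
    ring
  linarith


/-- sum of the three cone potentials of the rigid collinear family -/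
noncomputable def E1pot (P0 R0 r1 r2 r3 : ℝ) : ℝ :=
  2 / P0 + 2 / R0 + 2 / (P0 + R0) - (1 / P0 ^ 2 - 1 / R0 ^ 2) * r1
    - (1 / P0 ^ 2 + 1 / (P0 + R0) ^ 2) * r2 - (1 / R0 ^ 2 + 1 / (P0 + R0) ^ 2) * r3

/-- the real-variable core of `E1_main` -/
lemma E1_real {P0 R0 r1 r2 r3 p12 p23 p13 c : ℝ} (hP : 0 < P0) (hR : 0 < R0)
    (h1 : 0 < r1) (h2 : 0 < r2) (h13 : r1 < r3)
    (hstab : r3 * (r1 + r2) ^ 3 + r1 * (r2 + r3) ^ 3 < r2 * (r3 - r1) ^ 3)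
    (hp12 : 0 ≤ p12) (hp23 : 0 ≤ p23)
    (hN : (r1 + r2) ^ 3 * (r2 + r3) ^ 3 * r2 * p13
      ≤ (r3 * (r1 + r2) ^ 3 + r1 * (r2 + r3) ^ 3) * (p12 * (r2 + r3) ^ 3 + p23 * (r1 + r2) ^ 3))
    (hc : 1 / (r1 + r2) + p12 / (r1 + r2) ^ 3 + (1 / (r3 - r1) - p13 / (r3 - r1) ^ 3)
      + (1 / (r2 + r3) + p23 / (r2 + r3) ^ 3) ≤ c) :
    E1pot P0 R0 r1 r2 r3 ≤ c ∧
      (E1pot P0 R0 r1 r2 r3 = c → p12 = 0 ∧ p23 = 0 ∧ p13 ≤ 0 ∧ r1 + r2 = P0 ∧ r3 - r1 = R0) := by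
  have h3 : 0 < r3 := h1.trans h13
  have hs12 : 0 < r1 + r2 := by linarith
  have hs23 : 0 < r2 + r3 := by linarith
  have hs13 : 0 < r3 - r1 := by linarith
  set S12 := (r1 + r2) ^ 3 with hS12
  set S23 := (r2 + r3) ^ 3 with hS23
  set S13 := (r3 - r1) ^ 3 with hS13
  have S12p : 0 < S12 := by positivity
  have S23p : 0 < S23 := by positivity
  have S13p : 0 < S13 := by positivity
  set G := r3 * S12 + r1 * S23 with hG
  have Gp : 0 < G := by positivity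
  set V := p12 / S12 + p23 / S23 with hV
  have hV0 : 0 ≤ V := by positivity
  have hVe : p12 * S23 + p23 * S12 = V * (S12 * S23) := by
    rw [hV]; field_simp
  have hN2 : r2 * p13 ≤ G * V := by
    have : (S12 * S23) * (r2 * p13) ≤ (S12 * S23) * (G * V) := by
      calc (S12 * S23) * (r2 * p13) = S12 * S23 * r2 * p13 := by ring
        _ ≤ G * (p12 * S23 + p23 * S12) := hN
        _ = (S12 * S23) * (G * V) := by rw [hVe]; ring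
    exact le_of_mul_le_mul_left this (by positivity)
  set ε := (r2 * S13 - G) / (r2 * S13) with hε
  have hεp : 0 < ε := by
    apply div_pos (by linarith) (by positivity)
  have hQ : ε * V ≤ V - p13 / S13 := by
    have : V - p13 / S13 - ε * V = (G * V - r2 * p13) / (r2 * S13) := by
      rw [hε]; field_simp; ring
    have h0 : 0 ≤ (G * V - r2 * p13) / (r2 * S13) := div_nonneg (by linarith) (by positivity)
    linarith
  have t12 := tangent_inv hs12 hP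
  have t23 := tangent_inv hs23 (by positivity : 0 < P0 + R0)
  have t13 := tangent_inv hs13 hR
  have n12 : 0 ≤ (r1 + r2 - P0) ^ 2 / ((r1 + r2) * P0 ^ 2) := by positivity
  have n23 : 0 ≤ (r2 + r3 - (P0 + R0)) ^ 2 / ((r2 + r3) * (P0 + R0) ^ 2) := by positivity
  have n13 : 0 ≤ (r3 - r1 - R0) ^ 2 / ((r3 - r1) * R0 ^ 2) := by positivity
  have hεV : 0 ≤ ε * V := by positivity
  have hE : E1pot P0 R0 r1 r2 r3 = (2 / P0 - (r1 + r2) / P0 ^ 2) + (2 / R0 - (r3 - r1) / R0 ^ 2)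
      + (2 / (P0 + R0) - (r2 + r3) / (P0 + R0) ^ 2) := by
    unfold E1pot; ring
  have hmain : E1pot P0 R0 r1 r2 r3 + ε * V + (r1 + r2 - P0) ^ 2 / ((r1 + r2) * P0 ^ 2)
      + (r2 + r3 - (P0 + R0)) ^ 2 / ((r2 + r3) * (P0 + R0) ^ 2)
      + (r3 - r1 - R0) ^ 2 / ((r3 - r1) * R0 ^ 2) ≤ c := by
    have : V - p13 / S13 = p12 / S12 + p23 / S23 - p13 / S13 := by rw [hV]
    rw [hE]
    linarith
  refine ⟨by linarith, fun heq => ?_⟩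
  have z1 : ε * V = 0 := by linarith
  have z2 : (r1 + r2 - P0) ^ 2 / ((r1 + r2) * P0 ^ 2) = 0 := by linarith
  have z3 : (r3 - r1 - R0) ^ 2 / ((r3 - r1) * R0 ^ 2) = 0 := by linarith
  have hV00 : V = 0 := by
    rcases mul_eq_zero.mp z1 with h | h
    · exact absurd h hεp.ne'
    · exact h
  have q1 : 0 ≤ p12 / S12 := by positivity
  have q2 : 0 ≤ p23 / S23 := by positivity
  have q1' : p12 / S12 = 0 := by rw [hV] at hV00; linarith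
  have q2' : p23 / S23 = 0 := by rw [hV] at hV00; linarith
  have e12 : p12 = 0 := by
    rcases div_eq_zero_iff.mp q1' with h | h
    · exact h
    · exact absurd h S12p.ne'
  have e23 : p23 = 0 := by
    rcases div_eq_zero_iff.mp q2' with h | h
    · exact h
    · exact absurd h S23p.ne'
  have e13 : p13 ≤ 0 := by
    rw [hV00, mul_zero] at hN2
    by_contra hcon
    push Not at hcon
    have : 0 < r2 * p13 := by positivity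
    linarith
  have w1 : r1 + r2 = P0 := by
    rcases div_eq_zero_iff.mp z2 with h | h
    · have := pow_eq_zero_iff (two_ne_zero) |>.mp h
      linarith
    · exact absurd h (by positivity)
  have w2 : r3 - r1 = R0 := by
    rcases div_eq_zero_iff.mp z3 with h | h
    · have := pow_eq_zero_iff (two_ne_zero) |>.mp h
      linarith
    · exact absurd h (by positivity)
  exact ⟨e12, e23, e13, w1, w2⟩


lemma eq_smul_of_smul_add_smul_eq_zero {a b : ℝ} (ha : a ≠ 0) {x y : F} (h : a • x + b • y = 0) :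
    x = (-(b / a)) • y := by
  have h1 : a • x = -(b • y) := eq_neg_of_add_eq_zero_left h
  calc x = (a⁻¹ * a) • x := by rw [inv_mul_cancel₀ ha, one_smul]
    _ = a⁻¹ • (a • x) := by rw [smul_smul]
    _ = a⁻¹ • (-(b • y)) := by rw [h1]
    _ = (-(b / a)) • y := by
      rw [smul_neg, smul_smul, neg_smul]
      congr 2
      field_simp

/-- Collinear type: `x1` near the centre, `x2` alone on the opposite side, `x3` far on the side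
of `x1`.  Dual inequality and its equality case. -/
theorem E1_main {P0 R0 : ℝ} (hP : 0 < P0) (hR : 0 < R0) (x1 x2 x3 : F)
    (h1 : 0 < ‖x1‖) (h2 : 0 < ‖x2‖) (h13 : ‖x1‖ < ‖x3‖)
    (hstab : ‖x3‖ * (‖x1‖ + ‖x2‖) ^ 3 + ‖x1‖ * (‖x2‖ + ‖x3‖) ^ 3 < ‖x2‖ * (‖x3‖ - ‖x1‖) ^ 3)
    (h12 : x1 ≠ x2) (h23 : x2 ≠ x3) :
    E1pot P0 R0 ‖x1‖ ‖x2‖ ‖x3‖ ≤ 1 / dist x1 x2 + 1 / dist x1 x3 + 1 / dist x2 x3 ∧
    (E1pot P0 R0 ‖x1‖ ‖x2‖ ‖x3‖ = 1 / dist x1 x2 + 1 / dist x1 x3 + 1 / dist x2 x3 →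
      x1 = (-((P0 - ‖x2‖) / ‖x2‖)) • x2 ∧ x1 = ((‖x3‖ - R0) / ‖x3‖) • x3) := by
  have h13ne : x1 ≠ x3 := by
    rintro rfl
    exact lt_irrefl _ h13
  have h3 : 0 < ‖x3‖ := h1.trans h13
  have hs12 : 0 < ‖x1‖ + ‖x2‖ := by linarith
  have hs23 : 0 < ‖x2‖ + ‖x3‖ := by linarith
  have hs13 : 0 < ‖x3‖ - ‖x1‖ := by linarith
  have t12 := tangent_sq (dist_pos.mpr h12) hs12
  have t23 := tangent_sq (dist_pos.mpr h23) hs23
  have t13 := tangent_sq (dist_pos.mpr h13ne) hs13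
  rw [dist_sq_eq] at t12 t23 t13
  have nA := norm_sq_comb3 ‖x2‖ ‖x1‖ 0 x1 x2 x3
  have nB := norm_sq_comb3 0 ‖x3‖ ‖x2‖ x1 x2 x3
  have nC := norm_sq_comb3 ‖x3‖ 0 (-‖x1‖) x1 x2 x3
  have nN := norm_sq_comb3 ((‖x2‖ + ‖x3‖) ^ 3 * ‖x2‖)
    ((‖x2‖ + ‖x3‖) ^ 3 * ‖x1‖ + (‖x1‖ + ‖x2‖) ^ 3 * ‖x3‖) ((‖x1‖ + ‖x2‖) ^ 3 * ‖x2‖) x1 x2 x3
  have pA := sq_nonneg ‖‖x2‖ • x1 + ‖x1‖ • x2 + (0:ℝ) • x3‖
  have pB := sq_nonneg ‖(0:ℝ) • x1 + ‖x3‖ • x2 + ‖x2‖ • x3‖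
  have pC := sq_nonneg ‖‖x3‖ • x1 + (0:ℝ) • x2 + (-‖x1‖) • x3‖
  have pN := sq_nonneg ‖((‖x2‖ + ‖x3‖) ^ 3 * ‖x2‖) • x1 +
    ((‖x2‖ + ‖x3‖) ^ 3 * ‖x1‖ + (‖x1‖ + ‖x2‖) ^ 3 * ‖x3‖) • x2 + ((‖x1‖ + ‖x2‖) ^ 3 * ‖x2‖) • x3‖
  set r1 := ‖x1‖ with hr1
  set r2 := ‖x2‖ with hr2
  set r3 := ‖x3‖ with hr3
  set g12 := ⟪x1, x2⟫ with hg12
  set g13 := ⟪x1, x3⟫ with hg13
  set g23 := ⟪x2, x3⟫ with hg23
  have eA : ‖r2 • x1 + r1 • x2 + (0:ℝ) • x3‖ ^ 2 = 2 * r1 * r2 * (r1 * r2 + g12) := by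
    rw [nA]; ring
  have eB : ‖(0:ℝ) • x1 + r3 • x2 + r2 • x3‖ ^ 2 = 2 * r2 * r3 * (r2 * r3 + g23) := by
    rw [nB]; ring
  have eC : ‖r3 • x1 + (0:ℝ) • x2 + (-r1) • x3‖ ^ 2 = 2 * r1 * r3 * (r1 * r3 - g13) := by
    rw [nC]; ring
  have hp12 : 0 ≤ r1 * r2 + g12 := by
    rw [eA] at pA
    by_contra hcon
    push Not at hcon
    have : 2 * r1 * r2 * (r1 * r2 + g12) < 0 := mul_neg_of_pos_of_neg (by positivity) hcon
    linarith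
  have hp23 : 0 ≤ r2 * r3 + g23 := by
    rw [eB] at pB
    by_contra hcon
    push Not at hcon
    have : 2 * r2 * r3 * (r2 * r3 + g23) < 0 := mul_neg_of_pos_of_neg (by positivity) hcon
    linarith
  have hp13 : 0 ≤ r1 * r3 - g13 := by
    rw [eC] at pC
    by_contra hcon
    push Not at hcon
    have : 2 * r1 * r3 * (r1 * r3 - g13) < 0 := mul_neg_of_pos_of_neg (by positivity) hcon
    linarith
  have hN : (r1 + r2) ^ 3 * (r2 + r3) ^ 3 * r2 * (r1 * r3 - g13)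
      ≤ (r3 * (r1 + r2) ^ 3 + r1 * (r2 + r3) ^ 3)
        * ((r1 * r2 + g12) * (r2 + r3) ^ 3 + (r2 * r3 + g23) * (r1 + r2) ^ 3) := by
    rw [nN] at pN
    have e : ((r2 + r3) ^ 3 * r2) ^ 2 * r1 ^ 2
        + ((r2 + r3) ^ 3 * r1 + (r1 + r2) ^ 3 * r3) ^ 2 * r2 ^ 2 + ((r1 + r2) ^ 3 * r2) ^ 2 * r3 ^ 2
        + 2 * ((r2 + r3) ^ 3 * r2) * ((r2 + r3) ^ 3 * r1 + (r1 + r2) ^ 3 * r3) * g12
        + 2 * ((r2 + r3) ^ 3 * r2) * ((r1 + r2) ^ 3 * r2) * g13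
        + 2 * ((r2 + r3) ^ 3 * r1 + (r1 + r2) ^ 3 * r3) * ((r1 + r2) ^ 3 * r2) * g23
        = (2 * r2) * ((r3 * (r1 + r2) ^ 3 + r1 * (r2 + r3) ^ 3)
          * ((r1 * r2 + g12) * (r2 + r3) ^ 3 + (r2 * r3 + g23) * (r1 + r2) ^ 3)
          - (r1 + r2) ^ 3 * (r2 + r3) ^ 3 * r2 * (r1 * r3 - g13)) := by
      ring
    rw [e] at pN
    have := nonneg_of_mul_nonneg_right pN (by positivity : 0 < 2 * r2)
    linarith
  have hc : 1 / (r1 + r2) + (r1 * r2 + g12) / (r1 + r2) ^ 3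
      + (1 / (r3 - r1) - (r1 * r3 - g13) / (r3 - r1) ^ 3)
      + (1 / (r2 + r3) + (r2 * r3 + g23) / (r2 + r3) ^ 3)
      ≤ 1 / dist x1 x2 + 1 / dist x1 x3 + 1 / dist x2 x3 := by
    have i12 : 3 / (2 * (r1 + r2)) - (r1 ^ 2 + r2 ^ 2 - 2 * g12) / (2 * (r1 + r2) ^ 3)
        = 1 / (r1 + r2) + (r1 * r2 + g12) / (r1 + r2) ^ 3 := by
      field_simp; ring
    have i23 : 3 / (2 * (r2 + r3)) - (r2 ^ 2 + r3 ^ 2 - 2 * g23) / (2 * (r2 + r3) ^ 3)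
        = 1 / (r2 + r3) + (r2 * r3 + g23) / (r2 + r3) ^ 3 := by
      field_simp; ring
    have i13 : 3 / (2 * (r3 - r1)) - (r1 ^ 2 + r3 ^ 2 - 2 * g13) / (2 * (r3 - r1) ^ 3)
        = 1 / (r3 - r1) - (r1 * r3 - g13) / (r3 - r1) ^ 3 := by
      have : r3 - r1 ≠ 0 := hs13.ne'
      field_simp; ring
    linarith
  obtain ⟨hle, heq⟩ := E1_real hP hR h1 h2 h13 hstab hp12 hp23 hN hc
  refine ⟨hle, fun he => ?_⟩
  obtain ⟨e12, -, e13, w1, w2⟩ := heq he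
  constructor
  · rw [e12, mul_zero] at eA
    have hA : r2 • x1 + r1 • x2 = 0 := by
      have := norm_eq_zero.mp (pow_eq_zero_iff two_ne_zero |>.mp eA)
      simpa using this
    have := eq_smul_of_smul_add_smul_eq_zero h2.ne' hA
    rw [this]
    congr 3
    linarith
  · have e13' : r1 * r3 - g13 = 0 := le_antisymm e13 hp13
    rw [e13', mul_zero] at eC
    have hC : r3 • x1 + (-r1) • x3 = 0 := by
      have := norm_eq_zero.mp (pow_eq_zero_iff two_ne_zero |>.mp eC)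
      simpa using this
    have := eq_smul_of_smul_add_smul_eq_zero h3.ne' hC
    rw [this]
    congr 1
    rw [neg_div, neg_neg]
    congr 1
    linarith

end Vale.Agent.Lib.P121
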