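import Vale.Agent.Lib.P121.FiveBlob
import Vale.Agent.Lib.P121.Domain

open MeasureTheory Set Metric
open scoped ENNReal

namespace Vale.Agent.Lib.P121

/-- normalised Lebesgue measure on the parameter domain -/
noncomputable def lamPar : Measure E3 := ((volume : Measure E3) Dpar)⁻¹ • (volume : Measure E3).restrict Dpar

instance isProbabilityMeasure_lamPar : IsProbabilityMeasure lamPar := by
  constructor
  unfold lamPar
  rw [Measure.smul_apply, Measure.restrict_apply MeasurableSet.univ, univ_inter, smul_eq_mul]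
  exact ENNReal.inv_mul_cancel volume_Dpar_pos.ne' volume_Dpar_lt_top.ne

theorem ae_mem_Dpar : ∀ᵐ p ∂lamPar, p ∈ Dpar := by
  unfold lamPar
  apply Measure.ae_smul_measure
  exact ae_restrict_mem measurableSet_Dpar

/-- the counterexample measure -/
noncomputable def muCE : Measure E3 := fiveMix lamPar X

theorem lamPar_map_ac (j : Fin 5) : lamPar.map (X j) ≪ volume := by
  unfold lamPar
  rw [Measure.map_smul]
  exact (X_map_ac j).smul_left _

theorem muCE_ac : muCE ≪ volume := by
  unfold muCE fiveMix
  apply Measure.AbsolutelyContinuous.smul_left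
  intro s hs
  simp only [Measure.add_apply]
  simp [lamPar_map_ac 0 hs, lamPar_map_ac 1 hs, lamPar_map_ac 2 hs, lamPar_map_ac 3 hs,
    lamPar_map_ac 4 hs]

theorem main_counterexample :
    IsProbabilityMeasure muCE ∧ muCE ≪ volume ∧ kantVal coulomb muCE < ⊤ ∧
      ¬ ∃ T₂ T₃, IsOptimalMonge coulomb muCE T₂ T₃ := by
  have h := five_blob_no_monge coulomb measurable_coulomb coulomb_rot lamPar X
    (fun j => (continuous_X j).measurable) Kb measurableSet_Kb (fun i j hij => Kb_disjoint hij)
    (fun j => ae_mem_Dpar.mono fun p hp => X_mem_Kb hp j)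
    vpot measurable_vpot 10 (by norm_num) vpot_le 6 (by norm_num)
    vpot_dual
    (ae_mem_Dpar.mono fun p hp => contactA hp)
    (ae_mem_Dpar.mono fun p hp => contactB hp)
    G2 G3 measurable_G2 measurable_G3
    (ae_mem_Dpar.mono fun p hp => G2_X hp)
    (ae_mem_Dpar.mono fun p hp => G3_X hp)
    vpot_struct
  exact ⟨h.1, muCE_ac, h.2.1, h.2.2⟩

end Vale.Agent.Lib.P121
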