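import Vale.Agent.Lib.P121.Special

open MeasureTheory Set Metric
open scoped ENNReal

namespace Vale.Agent.Lib.P121

/-- the conclusion wanted for a contact configuration meeting the second or third blob -/
def StructConcl (x y z : E3) : Prop :=
  ∃ a b d, (a ∈ Kb 0 ∧ b ∈ Kb 1 ∧ d ∈ Kb 2 ∧ G2 b = a ∧ G3 d = a) ∧
    ((x, y, z) = (a, b, d) ∨ (x, y, z) = (a, d, b) ∨ (x, y, z) = (b, a, d) ∨
     (x, y, z) = (b, d, a) ∨ (x, y, z) = (d, a, b) ∨ (x, y, z) = (d, b, a))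

/-- what has to be shown for each ordered pattern of blobs -/
def PatOK (i j k : Fin 5) : Prop :=
  ∀ x ∈ Kb i, ∀ y ∈ Kb j, ∀ z ∈ Kb k,
    vv i x + vv j y + vv k z ≤ coulomb (x, y, z) + 6 ∧
    (vv i x + vv j y + vv k z = coulomb (x, y, z) + 6 →
      (i = 1 ∨ i = 2 ∨ j = 1 ∨ j = 2 ∨ k = 1 ∨ k = 2) → StructConcl x y z)

theorem patOK_crude {i j k : Fin 5}
    (h : ub i + ub j + ub k < 1 / Dm i j + 1 / Dm i k + 1 / Dm j k) : PatOK i j k := by
  intro x hx y hy z hz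
  have hlt := crude_lt hx hy hz (vv_le_ub hx) (vv_le_ub hy) (vv_le_ub hz) h
  exact ⟨hlt.le, fun heq => absurd heq hlt.ne⟩

theorem patOK_012 : PatOK 0 1 2 := by
  intro x hx y hy z hz
  obtain ⟨h1, h2⟩ := pat012 hx hy hz
  exact ⟨h1, fun heq _ => ⟨x, y, z, h2 heq, Or.inl rfl⟩⟩

theorem patOK_021 : PatOK 0 2 1 := by
  intro x hx z hz y hy
  obtain ⟨h1, h2⟩ := pat012 hx hy hz
  rw [coulomb_swap23, add_right_comm]
  exact ⟨h1, fun heq _ => ⟨x, y, z, h2 heq, Or.inr (Or.inl rfl)⟩⟩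

theorem patOK_102 : PatOK 1 0 2 := by
  intro y hy x hx z hz
  obtain ⟨h1, h2⟩ := pat012 hx hy hz
  rw [coulomb_swap12, add_comm (vv 1 y)]
  exact ⟨h1, fun heq _ => ⟨x, y, z, h2 heq, Or.inr (Or.inr (Or.inl rfl))⟩⟩

theorem patOK_120 : PatOK 1 2 0 := by
  intro y hy z hz x hx
  obtain ⟨h1, h2⟩ := pat012 hx hy hz
  rw [coulomb_rot, show vv 1 y + vv 2 z + vv 0 x = vv 0 x + vv 1 y + vv 2 z by ring]
  exact ⟨h1, fun heq _ => ⟨x, y, z, h2 heq, Or.inr (Or.inr (Or.inr (Or.inl rfl)))⟩⟩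

theorem patOK_201 : PatOK 2 0 1 := by
  intro z hz x hx y hy
  obtain ⟨h1, h2⟩ := pat012 hx hy hz
  rw [coulomb_rot', show vv 2 z + vv 0 x + vv 1 y = vv 0 x + vv 1 y + vv 2 z by ring]
  exact ⟨h1, fun heq _ => ⟨x, y, z, h2 heq, Or.inr (Or.inr (Or.inr (Or.inr (Or.inl rfl))))⟩⟩

theorem patOK_210 : PatOK 2 1 0 := by
  intro z hz y hy x hx
  obtain ⟨h1, h2⟩ := pat012 hx hy hz
  rw [coulomb_rev, show vv 2 z + vv 1 y + vv 0 x = vv 0 x + vv 1 y + vv 2 z by ring]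
  exact ⟨h1, fun heq _ => ⟨x, y, z, h2 heq, Or.inr (Or.inr (Or.inr (Or.inr (Or.inr rfl))))⟩⟩

theorem patOK_034 : PatOK 0 3 4 := by
  intro x hx y hy z hz
  exact ⟨pat034 hx hy hz, fun _ h => absurd h (by decide)⟩

theorem patOK_043 : PatOK 0 4 3 := by
  intro x hx z hz y hy
  rw [coulomb_swap23, add_right_comm]
  exact ⟨pat034 hx hy hz, fun _ h => absurd h (by decide)⟩

theorem patOK_304 : PatOK 3 0 4 := by
  intro y hy x hx z hz
  rw [coulomb_swap12, add_comm (vv 3 y)]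
  exact ⟨pat034 hx hy hz, fun _ h => absurd h (by decide)⟩

theorem patOK_340 : PatOK 3 4 0 := by
  intro y hy z hz x hx
  rw [coulomb_rot, show vv 3 y + vv 4 z + vv 0 x = vv 0 x + vv 3 y + vv 4 z by ring]
  exact ⟨pat034 hx hy hz, fun _ h => absurd h (by decide)⟩

theorem patOK_403 : PatOK 4 0 3 := by
  intro z hz x hx y hy
  rw [coulomb_rot', show vv 4 z + vv 0 x + vv 3 y = vv 0 x + vv 3 y + vv 4 z by ring]
  exact ⟨pat034 hx hy hz, fun _ h => absurd h (by decide)⟩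

theorem patOK_430 : PatOK 4 3 0 := by
  intro z hz y hy x hx
  rw [coulomb_rev, show vv 4 z + vv 3 y + vv 0 x = vv 0 x + vv 3 y + vv 4 z by ring]
  exact ⟨pat034 hx hy hz, fun _ h => absurd h (by decide)⟩

theorem patOK_0 (j k : Fin 5) : PatOK 0 j k := by
  fin_cases j <;> fin_cases k <;>
  first
  | (apply patOK_crude; simp only [ub, Dm]; norm_num; done)
  | exact patOK_012 | exact patOK_021 | exact patOK_034 | exact patOK_043

theorem patOK_1 (j k : Fin 5) : PatOK 1 j k := by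
  fin_cases j <;> fin_cases k <;>
  first
  | (apply patOK_crude; simp only [ub, Dm]; norm_num; done)
  | exact patOK_102 | exact patOK_120

theorem patOK_2 (j k : Fin 5) : PatOK 2 j k := by
  fin_cases j <;> fin_cases k <;>
  first
  | (apply patOK_crude; simp only [ub, Dm]; norm_num; done)
  | exact patOK_201 | exact patOK_210

theorem patOK_3 (j k : Fin 5) : PatOK 3 j k := by
  fin_cases j <;> fin_cases k <;>
  first
  | (apply patOK_crude; simp only [ub, Dm]; norm_num; done)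
  | exact patOK_304 | exact patOK_340

theorem patOK_4 (j k : Fin 5) : PatOK 4 j k := by
  fin_cases j <;> fin_cases k <;>
  first
  | (apply patOK_crude; simp only [ub, Dm]; norm_num; done)
  | exact patOK_403 | exact patOK_430

theorem patOK_all (i j k : Fin 5) : PatOK i j k := by
  fin_cases i
  · exact patOK_0 j k
  · exact patOK_1 j k
  · exact patOK_2 j k
  · exact patOK_3 j k
  · exact patOK_4 j k

theorem mem_Kall_iff {x : E3} : x ∈ Kall ↔ ∃ j, x ∈ Kb j := by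
  simp [Kall]

theorem vpot_dual : ∀ x ∈ Kall, ∀ y ∈ Kall, ∀ z ∈ Kall,
    vpot x + vpot y + vpot z ≤ coulomb (x, y, z) + 6 := by
  intro x hx y hy z hz
  obtain ⟨i, hi⟩ := mem_Kall_iff.mp hx
  obtain ⟨j, hj⟩ := mem_Kall_iff.mp hy
  obtain ⟨k, hk⟩ := mem_Kall_iff.mp hz
  rw [vpot_eq hi, vpot_eq hj, vpot_eq hk]
  exact (patOK_all i j k x hi y hj z hk).1

theorem idx_of_mem {i : Fin 5} {x : E3} (hi : x ∈ Kb i) (h : x ∈ Kb 1 ∪ Kb 2) : i = 1 ∨ i = 2 := by
  rcases h with h | h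
  · left
    by_contra hne
    exact (Set.disjoint_left.mp (Kb_disjoint hne)) hi h
  · right
    by_contra hne
    exact (Set.disjoint_left.mp (Kb_disjoint hne)) hi h

theorem vpot_struct : ∀ x ∈ Kall, ∀ y ∈ Kall, ∀ z ∈ Kall,
    vpot x + vpot y + vpot z = coulomb (x, y, z) + 6 →
    (x ∈ Kb 1 ∪ Kb 2 ∨ y ∈ Kb 1 ∪ Kb 2 ∨ z ∈ Kb 1 ∪ Kb 2) → StructConcl x y z := by
  intro x hx y hy z hz heq hmem
  obtain ⟨i, hi⟩ := mem_Kall_iff.mp hx
  obtain ⟨j, hj⟩ := mem_Kall_iff.mp hy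
  obtain ⟨k, hk⟩ := mem_Kall_iff.mp hz
  rw [vpot_eq hi, vpot_eq hj, vpot_eq hk] at heq
  refine (patOK_all i j k x hi y hj z hk).2 heq ?_
  rcases hmem with h | h | h
  · rcases idx_of_mem hi h with h | h <;> simp [h]
  · rcases idx_of_mem hj h with h | h <;> simp [h]
  · rcases idx_of_mem hk h with h | h <;> simp [h]

end Vale.Agent.Lib.P121
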