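import Vale.Agent.Lib.P121.Defs

open MeasureTheory Set
open scoped ENNReal RealInnerProductSpace

namespace Vale.Agent.Lib.P121

/-- unit vector with longitude `a` and latitude `b` -/
noncomputable def nvec (a b : ℝ) : E3 :=
  !₂[Real.cos a * Real.cos b, Real.sin a * Real.cos b, Real.sin b]

/-- unit vector tangent to the meridian (derivative of `nvec` in the latitude) -/
noncomputable def mvec (a b : ℝ) : E3 :=
  !₂[-(Real.cos a * Real.sin b), -(Real.sin a * Real.sin b), Real.cos b]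

theorem norm_nvec (a b : ℝ) : ‖nvec a b‖ = 1 := by
  rw [EuclideanSpace.norm_eq, Real.sqrt_eq_one]
  simp only [nvec, Fin.sum_univ_three, Real.norm_eq_abs, sq_abs]
  simp
  nlinarith [Real.sin_sq_add_cos_sq a, Real.sin_sq_add_cos_sq b]

theorem norm_mvec (a b : ℝ) : ‖mvec a b‖ = 1 := by
  rw [EuclideanSpace.norm_eq, Real.sqrt_eq_one]
  simp only [mvec, Fin.sum_univ_three, Real.norm_eq_abs, sq_abs]
  simp
  nlinarith [Real.sin_sq_add_cos_sq a, Real.sin_sq_add_cos_sq b]

theorem inner_nvec_mvec (a b : ℝ) : ⟪nvec a b, mvec a b⟫ = 0 := by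
  simp only [nvec, mvec, PiLp.inner_apply, Fin.sum_univ_three]
  simp
  linear_combination (-(Real.sin b * Real.cos b)) * Real.sin_sq_add_cos_sq a

/-- the map `(t, a, b) ↦ A t • nvec a b + B t • mvec a b` -/
noncomputable def sph (A B : ℝ → ℝ) (p : E3) : E3 :=
  A (p 0) • nvec (p 1) (p 2) + B (p 0) • mvec (p 1) (p 2)

theorem continuous_sph {A B : ℝ → ℝ} (hA : Continuous A) (hB : Continuous B) :
    Continuous (sph A B) := by
  unfold sph nvec mvec
  fun_prop

theorem norm_sq_sph (A B : ℝ → ℝ) (p : E3) : ‖sph A B p‖ ^ 2 = A (p 0) ^ 2 + B (p 0) ^ 2 := by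
  unfold sph
  rw [norm_add_sq_real, norm_smul, norm_smul, norm_nvec, norm_mvec, inner_smul_left,
    inner_smul_right, inner_nvec_mvec]
  simp

/-- General criterion: an injective differentiable map with invertible derivative pushes
Lebesgue measure (restricted to a measurable set) to an absolutely continuous measure. -/
theorem map_restrict_ac_of_injOn_of_det_ne_zero
    {E : Type*} [NormedAddCommGroup E] [NormedSpace ℝ E] [FiniteDimensional ℝ E]
    [MeasurableSpace E] [BorelSpace E] (μ : Measure E) [μ.IsAddHaarMeasure]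
    {s : Set E} (hs : MeasurableSet s) {f : E → E} {f' : E → E →L[ℝ] E} (hfm : Measurable f)
    (hf' : ∀ x ∈ s, HasFDerivWithinAt f (f' x) s x) (hinj : InjOn f s)
    (hdet : ∀ x ∈ s, (f' x).det ≠ 0) :
    (μ.restrict s).map f ≪ μ := by
  refine Measure.AbsolutelyContinuous.mk fun N hN hN0 => ?_
  rw [Measure.map_apply hfm hN, Measure.restrict_apply (hfm hN)]
  set t : Set E := f ⁻¹' N ∩ s with ht
  have htm : MeasurableSet t := (hfm hN).inter hs
  have hts : t ⊆ s := inter_subset_right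
  have hf't : ∀ x ∈ t, HasFDerivWithinAt f (f' x) t x := fun x hx => (hf' x (hts hx)).mono hts
  have h1 : (∫⁻ x in t, ENNReal.ofReal |(f' x).det| ∂μ) = μ (f '' t) :=
    lintegral_abs_det_fderiv_eq_addHaar_image μ htm hf't (hinj.mono hts)
  have h2 : μ (f '' t) = 0 := by
    refine measure_mono_null ?_ hN0
    rintro _ ⟨x, hx, rfl⟩
    exact hx.1
  rw [h2] at h1
  have h3 := (lintegral_eq_zero_iff' (aemeasurable_ofReal_abs_det_fderivWithin μ htm hf't)).1 h1
  have h4 : ∀ᵐ x ∂(μ.restrict t), False := by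
    have h5 : ∀ᵐ x ∂(μ.restrict t), x ∈ t := ae_restrict_mem htm
    filter_upwards [h3, h5] with x hx hxt
    have : ENNReal.ofReal |(f' x).det| = 0 := hx
    rw [ENNReal.ofReal_eq_zero] at this
    exact hdet x (hts hxt) (abs_eq_zero.1 (le_antisymm this (abs_nonneg _)))
  have h6 : μ.restrict t = 0 := by
    simpa [Filter.eventually_false_iff_eq_bot, ae_eq_bot] using h4
  simpa using congrArg (fun ν : Measure E => ν univ) h6

theorem sph_apply_zero (A B : ℝ → ℝ) (p : E3) :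
    sph A B p 0 = Real.cos (p 1) * (A (p 0) * Real.cos (p 2) - B (p 0) * Real.sin (p 2)) := by
  simp [sph, nvec, mvec]
  ring

theorem sph_apply_one (A B : ℝ → ℝ) (p : E3) :
    sph A B p 1 = Real.sin (p 1) * (A (p 0) * Real.cos (p 2) - B (p 0) * Real.sin (p 2)) := by
  simp [sph, nvec, mvec]
  ring

theorem sph_apply_two (A B : ℝ → ℝ) (p : E3) :
    sph A B p 2 = A (p 0) * Real.sin (p 2) + B (p 0) * Real.cos (p 2) := by
  simp [sph, nvec, mvec]

/-- the Jacobian matrix of `sph A B` -/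
noncomputable def sphJac (A B A' B' : ℝ → ℝ) (p : E3) : Matrix (Fin 3) (Fin 3) ℝ :=
  !![Real.cos (p 1) * (A' (p 0) * Real.cos (p 2) - B' (p 0) * Real.sin (p 2)),
      -(Real.sin (p 1) * (A (p 0) * Real.cos (p 2) - B (p 0) * Real.sin (p 2))),
      -(Real.cos (p 1) * (A (p 0) * Real.sin (p 2) + B (p 0) * Real.cos (p 2)));
     Real.sin (p 1) * (A' (p 0) * Real.cos (p 2) - B' (p 0) * Real.sin (p 2)),
      Real.cos (p 1) * (A (p 0) * Real.cos (p 2) - B (p 0) * Real.sin (p 2)),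
      -(Real.sin (p 1) * (A (p 0) * Real.sin (p 2) + B (p 0) * Real.cos (p 2)));
     A' (p 0) * Real.sin (p 2) + B' (p 0) * Real.cos (p 2),
      0,
      A (p 0) * Real.cos (p 2) - B (p 0) * Real.sin (p 2)]

theorem det_sphJac (A B A' B' : ℝ → ℝ) (p : E3) :
    (sphJac A B A' B' p).det = (A (p 0) * Real.cos (p 2) - B (p 0) * Real.sin (p 2)) *
      (A (p 0) * A' (p 0) + B (p 0) * B' (p 0)) := by
  rw [sphJac, Matrix.det_fin_three]
  simp only [Matrix.of_apply, Matrix.cons_val', Matrix.cons_val_zero, Matrix.cons_val_one,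
    Matrix.cons_val]
  have h1 := Real.sin_sq_add_cos_sq (p 1)
  have h2 := Real.sin_sq_add_cos_sq (p 2)
  set c1 := Real.cos (p 1)
  set s1 := Real.sin (p 1)
  set c2 := Real.cos (p 2)
  set s2 := Real.sin (p 2)
  set a := A (p 0)
  set b := B (p 0)
  set a' := A' (p 0)
  set b' := B' (p 0)
  have e1 : s1 ^ 2 = 1 - c1 ^ 2 := by linarith
  have e2 : s2 ^ 2 = 1 - c2 ^ 2 := by linarith
  linear_combination ((a * c2 - b * s2) * ((a * c2 - b * s2) * (a' * c2 - b' * s2) +
    (a * s2 + b * c2) * (a' * s2 + b' * c2))) * h1 +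
    ((a * c2 - b * s2) * (a * a' + b * b')) * h2

theorem det_toEuclideanCLM (M : Matrix (Fin 3) (Fin 3) ℝ) :
    (Matrix.toEuclideanCLM (n := Fin 3) (𝕜 := ℝ) M).det = M.det := by
  rw [ContinuousLinearMap.det, Matrix.coe_toEuclideanCLM_eq_toEuclideanLin,
    Matrix.toEuclideanLin_eq_toLin_orthonormal, LinearMap.det_toLin]

theorem hasFDerivAt_sph {A B A' B' : ℝ → ℝ} {p : E3} (hA : HasDerivAt A (A' (p 0)) (p 0))
    (hB : HasDerivAt B (B' (p 0)) (p 0)) :
    HasFDerivAt (sph A B) (Matrix.toEuclideanCLM (n := Fin 3) (𝕜 := ℝ) (sphJac A B A' B' p)) p := by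
  have hc : ∀ j : Fin 3, HasFDerivAt (fun x : E3 => x j)
      (EuclideanSpace.proj j : E3 →L[ℝ] ℝ) p := fun j =>
    (EuclideanSpace.proj j : E3 →L[ℝ] ℝ).hasFDerivAt
  have hAt := hA.comp_hasFDerivAt p (hc 0)
  have hBt := hB.comp_hasFDerivAt p (hc 0)
  have hc1 := (hc 1).cos
  have hs1 := (hc 1).sin
  have hc2 := (hc 2).cos
  have hs2 := (hc 2).sin
  rw [← hasFDerivWithinAt_univ, hasFDerivWithinAt_euclidean]
  intro i
  rw [hasFDerivWithinAt_univ]
  fin_cases i
  · have h := hc1.mul ((hAt.mul hc2).sub (hBt.mul hs2))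
    refine (h.congr_fderiv ?_).congr_of_eventuallyEq
      (Filter.Eventually.of_forall fun x => sph_apply_zero A B x)
    ext v
    simp [sphJac, Matrix.mulVec, dotProduct, Fin.sum_univ_three]
    ring
  · have h := hs1.mul ((hAt.mul hc2).sub (hBt.mul hs2))
    refine (h.congr_fderiv ?_).congr_of_eventuallyEq
      (Filter.Eventually.of_forall fun x => sph_apply_one A B x)
    ext v
    simp [sphJac, Matrix.mulVec, dotProduct, Fin.sum_univ_three]
    ring
  · have h := (hAt.mul hs2).add (hBt.mul hc2)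
    refine (h.congr_fderiv ?_).congr_of_eventuallyEq
      (Filter.Eventually.of_forall fun x => sph_apply_two A B x)
    ext v
    simp [sphJac, Matrix.mulVec, dotProduct, Fin.sum_univ_three]
    ring

theorem sph_injOn (A B : ℝ → ℝ) (I : Set ℝ) (η : ℝ) (hη : η ≤ 1) (D : Set E3)
    (hDbox : ∀ p ∈ D, p 0 ∈ I ∧ |p 1| ≤ 1 ∧ |p 2| ≤ η)
    (hinj : InjOn (fun t => A t ^ 2 + B t ^ 2) I)
    (hH : ∀ t ∈ I, ∀ β : ℝ, |β| ≤ η → A t * Real.cos β - B t * Real.sin β ≠ 0) :
    InjOn (sph A B) D := by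
  intro p hp q hq h
  obtain ⟨hp0, hp1, hp2⟩ := hDbox p hp
  obtain ⟨hq0, hq1, hq2⟩ := hDbox q hq
  have h0 : p 0 = q 0 := by
    apply hinj hp0 hq0
    simp only
    rw [← norm_sq_sph, ← norm_sq_sph, h]
  have hpi : (3 : ℝ) < Real.pi := Real.pi_gt_three
  have h2 : p 2 = q 2 := by
    have e := congrArg (fun v : E3 => v 2) h
    simp only [sph_apply_two] at e
    rw [← h0] at e
    have e1 : 2 * Real.sin ((p 2 - q 2) / 2) *
        (A (p 0) * Real.cos ((p 2 + q 2) / 2) - B (p 0) * Real.sin ((p 2 + q 2) / 2)) = 0 := by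
      have s1 := Real.sin_sub_sin (p 2) (q 2)
      have s2 := Real.cos_sub_cos (p 2) (q 2)
      linear_combination e - A (p 0) * s1 - B (p 0) * s2
    have hmid : |(p 2 + q 2) / 2| ≤ η := by
      rw [abs_le] at hp2 hq2 ⊢
      constructor <;> linarith [hp2.1, hp2.2, hq2.1, hq2.2]
    have hne := hH (p 0) hp0 _ hmid
    have e2 : Real.sin ((p 2 - q 2) / 2) = 0 := by
      rcases mul_eq_zero.1 e1 with h' | h'
      · linarith
      · exact absurd h' hne
    rw [abs_le] at hp2 hq2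
    have e3 := (Real.sin_eq_zero_iff_of_lt_of_lt (by linarith [hp2.1, hq2.2])
      (by linarith [hp2.2, hq2.1])).1 e2
    linarith
  have h1 : p 1 = q 1 := by
    have e := congrArg (fun v : E3 => v 1) h
    simp only [sph_apply_one] at e
    rw [← h0, ← h2] at e
    have hne := hH (p 0) hp0 (p 2) hp2
    have e1 : Real.sin (p 1) = Real.sin (q 1) := mul_right_cancel₀ hne e
    rw [abs_le] at hp1 hq1
    exact Real.injOn_sin ⟨by linarith [hp1.1], by linarith [hp1.2]⟩
      ⟨by linarith [hq1.1], by linarith [hq1.2]⟩ e1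
  ext i
  fin_cases i
  · exact h0
  · exact h1
  · exact h2

/-- Absolute continuity of the push-forward of Lebesgue measure under `sph A B`. -/
theorem sph_map_ac (A B A' B' : ℝ → ℝ) (I : Set ℝ) (η : ℝ) (hη : η ≤ 1) (D : Set E3)
    (hD : MeasurableSet D)
    (hDbox : ∀ p ∈ D, p 0 ∈ I ∧ |p 1| ≤ 1 ∧ |p 2| ≤ η)
    (hAc : Continuous A) (hBc : Continuous B)
    (hA : ∀ t ∈ I, HasDerivAt A (A' t) t) (hB : ∀ t ∈ I, HasDerivAt B (B' t) t)
    (hrho : ∀ t ∈ I, A t * A' t + B t * B' t ≠ 0)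
    (hinj : InjOn (fun t => A t ^ 2 + B t ^ 2) I)
    (hH : ∀ t ∈ I, ∀ β : ℝ, |β| ≤ η → A t * Real.cos β - B t * Real.sin β ≠ 0) :
    ((volume : Measure E3).restrict D).map (sph A B) ≪ volume := by
  refine map_restrict_ac_of_injOn_of_det_ne_zero volume hD
    (f' := fun p => Matrix.toEuclideanCLM (n := Fin 3) (𝕜 := ℝ) (sphJac A B A' B' p))
    (continuous_sph hAc hBc).measurable ?_ (sph_injOn A B I η hη D hDbox hinj hH) ?_
  · intro p hp
    obtain ⟨hp0, _, _⟩ := hDbox p hp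
    exact (hasFDerivAt_sph (hA _ hp0) (hB _ hp0)).hasFDerivWithinAt
  · intro p hp
    obtain ⟨hp0, _, hp2⟩ := hDbox p hp
    rw [det_toEuclideanCLM, det_sphJac]
    exact mul_ne_zero (hH _ hp0 _ hp2) (hrho _ hp0)

end Vale.Agent.Lib.P121
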