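import Vale.Agent.Lib.P121.Defs
import Vale.Agent.Lib.P121.Sph
import Vale.Agent.Lib.P121.Family

open MeasureTheory Set Metric
open scoped ENNReal

namespace Vale.Agent.Lib.P121

/-! ### constants -/

noncomputable def P0 : ℝ := 12 / 17
noncomputable def R0 : ℝ := 12
noncomputable def c1 : ℝ := 1.82
noncomputable def c2 : ℝ := 2.51
noncomputable def c3 : ℝ := 341 / 108 - 1.82 - 2.51
noncomputable def F2 : ℝ := 1 / P0 ^ 2 + 1 / (P0 + R0) ^ 2
noncomputable def F3 : ℝ := 1 / R0 ^ 2 + 1 / (P0 + R0) ^ 2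

/-- radial coefficients of the five maps -/
noncomputable def Ac : Fin 5 → ℝ → ℝ
  | 0 => qv
  | 1 => fun t => -(P0 - qv t)
  | 2 => fun t => R0 + qv t
  | 3 => fun t => -hv t
  | 4 => fun t => -hv t

/-- tangential coefficients of the five maps -/
noncomputable def Bc : Fin 5 → ℝ → ℝ
  | 0 => fun _ => 0
  | 1 => fun _ => 0
  | 2 => fun _ => 0
  | 3 => bv
  | 4 => fun t => -bv t

/-- the five maps from parameter space to `E3` -/
noncomputable def X (j : Fin 5) : E3 → E3 := sph (Ac j) (Bc j)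

/-- centres of the five blobs -/
noncomputable def cen : Fin 5 → E3
  | 0 => !₂[0.2182, 0, 0]
  | 1 => !₂[-(12 / 17 - 0.2182), 0, 0]
  | 2 => !₂[12.2182, 0, 0]
  | 3 => !₂[-0.3433, 0, 0.6044]
  | 4 => !₂[-0.3433, 0, -0.6044]

/-- the five blobs -/
noncomputable def Kb : Fin 5 → Set E3
  | 0 => closedBall (cen 0) 0.01 ∩ {x | qv 0.82 ≤ ‖x‖ ∧ ‖x‖ ≤ qv 0.83}
  | 1 => closedBall (cen 1) 0.01
  | 2 => closedBall (cen 2) 0.01
  | 3 => closedBall (cen 3) 0.01
  | 4 => closedBall (cen 4) 0.01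

theorem Kb_subset_ball (j : Fin 5) : Kb j ⊆ closedBall (cen j) 0.01 := by
  fin_cases j
  · exact inter_subset_left
  all_goals exact subset_rfl

theorem isClosed_Kb (j : Fin 5) : IsClosed (Kb j) := by
  fin_cases j
  · refine isClosed_closedBall.inter ?_
    have : {x : E3 | qv 0.82 ≤ ‖x‖ ∧ ‖x‖ ≤ qv 0.83} = {x | qv 0.82 ≤ ‖x‖} ∩ {x | ‖x‖ ≤ qv 0.83} := rfl
    rw [this]
    exact (isClosed_le continuous_const continuous_norm).inter
      (isClosed_le continuous_norm continuous_const)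
  all_goals exact isClosed_closedBall

theorem measurableSet_Kb (j : Fin 5) : MeasurableSet (Kb j) := (isClosed_Kb j).measurableSet

/-- the support -/
noncomputable def Kall : Set E3 := ⋃ j, Kb j

theorem measurableSet_Kall : MeasurableSet Kall := MeasurableSet.iUnion measurableSet_Kb

/-- lower envelope, in shifted `ENNReal` form -/
noncomputable def genv (ρ : ℝ) : ℝ≥0∞ :=
  ⨅ t ∈ Ifam, ENNReal.ofReal ((Gv t - c1) / 2 - K4v t * ρ / 2 + 2)

/-- shifted potentials on the five blobs -/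
noncomputable def vv : Fin 5 → E3 → ℝ≥0∞
  | 0 => fun x => ENNReal.ofReal (c1 - 2 * ‖x‖ + 2)
  | 1 => fun x => ENNReal.ofReal (c2 - F2 * ‖x‖ + 2)
  | 2 => fun x => ENNReal.ofReal (c3 - F3 * ‖x‖ + 2)
  | 3 => fun x => genv (‖x‖ ^ 2)
  | 4 => fun x => genv (‖x‖ ^ 2)

open Classical in
/-- the shifted dual potential -/
noncomputable def vpot (x : E3) : ℝ≥0∞ :=
  if x ∈ Kb 0 then vv 0 x else if x ∈ Kb 1 then vv 1 x else if x ∈ Kb 2 then vv 2 x
  else genv (‖x‖ ^ 2)

/-- coordinates are controlled by the distance -/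
theorem abs_coord_sub_le (x y : E3) (k : Fin 3) : |x k - y k| ≤ dist x y := by
  have := PiLp.norm_apply_le (x - y) k
  simpa [dist_eq_norm, Real.norm_eq_abs] using this

theorem coord_mem {j : Fin 5} {x : E3} (hx : x ∈ Kb j) (k : Fin 3) :
    |x k - cen j k| ≤ 0.01 :=
  (abs_coord_sub_le x (cen j) k).trans (mem_closedBall.mp (Kb_subset_ball j hx))

end Vale.Agent.Lib.P121
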