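import Vale.Agent.Lib.P121.Bounds
import Vale.Agent.Lib.P121.Ineq

open MeasureTheory Set Metric
open scoped ENNReal

namespace Vale.Agent.Lib.P121

theorem ne_of_mem_Kb {i j : Fin 5} (hij : i ≠ j) {x y : E3} (hx : x ∈ Kb i) (hy : y ∈ Kb j) :
    x ≠ y := by
  rintro rfl
  exact (Set.disjoint_left.mp (Kb_disjoint hij)) hx hy

theorem E1pot_eq (r1 r2 r3 : ℝ) :
    E1pot P0 R0 r1 r2 r3 = (c1 - 2 * r1) + (c2 - F2 * r2) + (c3 - F3 * r3) := by
  unfold E1pot c1 c2 c3 F2 F3 P0 R0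
  ring

/-- recovers the point of the first blob from the point of the second one -/
noncomputable def G2 (y : E3) : E3 := (-((P0 - ‖y‖) / ‖y‖)) • y

/-- recovers the point of the first blob from the point of the third one -/
noncomputable def G3 (y : E3) : E3 := ((‖y‖ - R0) / ‖y‖) • y

theorem measurable_G2 : Measurable G2 := by
  unfold G2
  fun_prop

theorem measurable_G3 : Measurable G3 := by
  unfold G3
  fun_prop

/-- a contact configuration of collinear type -/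
def TypeA (a b d : E3) : Prop := a ∈ Kb 0 ∧ b ∈ Kb 1 ∧ d ∈ Kb 2 ∧ G2 b = a ∧ G3 d = a

theorem pat012 {x y z : E3} (hx : x ∈ Kb 0) (hy : y ∈ Kb 1) (hz : z ∈ Kb 2) :
    vv 0 x + vv 1 y + vv 2 z ≤ coulomb (x, y, z) + 6 ∧
    (vv 0 x + vv 1 y + vv 2 z = coulomb (x, y, z) + 6 → TypeA x y z) := by
  have nx := norm_Kb0 hx
  have ny := norm_Kb1 hy
  have nz := norm_Kb2 hz
  have hxy : x ≠ y := ne_of_mem_Kb (by decide) hx hy
  have hxz : x ≠ z := ne_of_mem_Kb (by decide) hx hz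
  have hyz : y ≠ z := ne_of_mem_Kb (by decide) hy hz
  have hstab : ‖z‖ * (‖x‖ + ‖y‖) ^ 3 + ‖x‖ * (‖y‖ + ‖z‖) ^ 3 < ‖y‖ * (‖z‖ - ‖x‖) ^ 3 := by
    have e1 : ‖z‖ * (‖x‖ + ‖y‖) ^ 3 ≤ 12.2282 * (0.2282 + 0.4977) ^ 3 := by
      have := nx.1; have := ny.1; have := nz.1
      gcongr
      · exact nz.2
      · exact nx.2
      · exact ny.2
    have e2 : ‖x‖ * (‖y‖ + ‖z‖) ^ 3 ≤ 0.2282 * (0.4977 + 12.2282) ^ 3 := by
      have := nx.1; have := ny.1; have := nz.1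
      gcongr
      · exact nx.2
      · exact ny.2
      · exact nz.2
    have e3 : 0.4776 * (12.2082 - 0.2282) ^ 3 ≤ ‖y‖ * (‖z‖ - ‖x‖) ^ 3 := by
      have h0 : (12.2082 - 0.2282 : ℝ) ≤ ‖z‖ - ‖x‖ := by linarith [nz.1, nx.2]
      have h1 : (12.2082 - 0.2282 : ℝ) ^ 3 ≤ (‖z‖ - ‖x‖) ^ 3 := by
        gcongr
      exact mul_le_mul ny.1 h1 (by norm_num) (by linarith [ny.1])
    norm_num at e1 e2 e3
    linarith
  have hmain := E1_main (P0 := P0) (R0 := R0) (by unfold P0; norm_num) (by unfold R0; norm_num)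
    x y z (by linarith [nx.1]) (by linarith [ny.1]) (by linarith [nx.2, nz.1]) hstab hxy hyz
  rw [E1pot_eq] at hmain
  have ha : 0 ≤ c1 - 2 * ‖x‖ + 2 := by unfold c1; linarith [nx.2]
  have hb : 0 ≤ c2 - F2 * ‖y‖ + 2 := by rw [F2_val]; unfold c2; linarith [ny.2]
  have hc : 0 ≤ c3 - F3 * ‖z‖ + 2 := by rw [F3_val]; unfold c3; linarith [nz.2]
  have hS : 0 ≤ 1 / dist x y + 1 / dist x z + 1 / dist y z := by positivity
  rw [coulomb_eq hxy hxz hyz]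
  refine ⟨transfer_le ha hb hc hS hmain.1, fun heq => ?_⟩
  have heq' := (transfer_eq ha hb hc hS).mp heq
  obtain ⟨g2, g3⟩ := hmain.2 heq'
  exact ⟨hx, hy, hz, g2.symm, g3.symm⟩

theorem K4v_le {t : ℝ} (ht : t ∈ Ifam) : 0 < K4v t ∧ K4v t ≤ 3.01 := by
  have hy := yv_bounds ht
  have ht0 : (0.82 : ℝ) ≤ t := ht.1
  have h1 : (0.7248 : ℝ) ^ 3 ≤ yv t ^ 3 := by
    have := hy.1.le
    gcongr
  have h2 : (0.82 : ℝ) ^ 3 ≤ t ^ 3 := by gcongr
  have h3 : 0 < yv t ^ 3 := by linarith [show (0 : ℝ) < 0.7248 ^ 3 by norm_num]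
  have h4 : 0 < t ^ 3 := by linarith [show (0 : ℝ) < 0.82 ^ 3 by norm_num]
  unfold K4v
  constructor
  · positivity
  · rw [div_le_iff₀ h4]
    have h5 : 1 / (4 * yv t ^ 3) ≤ 1 / (4 * 0.7248 ^ 3) := by
      gcongr
    norm_num at h1 h2 h5 ⊢
    nlinarith

theorem Gv_ge {t : ℝ} (ht : t ∈ Ifam) : 3.6 ≤ Gv t := by
  have hy := yv_bounds ht
  have hq := qv_bounds ht
  have ht0 : (0.82 : ℝ) ≤ t := ht.1
  have ht1 : t ≤ 0.83 := ht.2
  have h1 : 3 / 0.83 ≤ 3 / t := by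
    gcongr
  have h2 : 0 ≤ 3 / (4 * t * yv t) := by
    have := hy.1
    have : 0 < yv t := by linarith
    positivity
  unfold Gv
  norm_num at h1
  linarith [hq.1]

theorem q4_shift_nonneg {t r : ℝ} (ht : t ∈ Ifam) (hr0 : 0 ≤ r) (hr : r ≤ 0.7051) :
    0 ≤ (Gv t - c1) / 2 - K4v t * r ^ 2 / 2 + 2 := by
  have h1 := Gv_ge ht
  have h2 := K4v_le ht
  have h3 : r ^ 2 ≤ 0.7051 ^ 2 := by gcongr
  have h4 : K4v t * r ^ 2 ≤ 3.01 * 0.7051 ^ 2 := by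
    apply mul_le_mul h2.2 h3 (by positivity) (by norm_num)
  unfold c1
  norm_num at h4 ⊢
  linarith

theorem exists_param {x : E3} (hx : x ∈ Kb 0) : ∃ t ∈ Ifam, qv t = ‖x‖ := by
  have h := intermediate_value_Icc (show (0.82 : ℝ) ≤ 0.83 by norm_num) continuous_qv.continuousOn
  obtain ⟨t, ht, hq⟩ := h (show ‖x‖ ∈ Icc (qv 0.82) (qv 0.83) from hx.2)
  exact ⟨t, ht, hq⟩

/-- real form of the triangle type inequality -/
theorem typeB_real {t : ℝ} (ht : t ∈ Ifam) {x y z : E3} (hq : qv t = ‖x‖)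
    (hxy : x ≠ y) (hxz : x ≠ z) (hyz : y ≠ z) :
    (c1 - 2 * ‖x‖) + ((Gv t - c1) / 2 - K4v t * ‖y‖ ^ 2 / 2) + ((Gv t - c1) / 2 - K4v t * ‖z‖ ^ 2 / 2)
      ≤ 1 / dist x y + 1 / dist x z + 1 / dist y z := by
  have ht0 : 0 < t := by linarith [ht.1, show (0 : ℝ) < 0.82 by norm_num]
  have hb := bv_bounds ht
  have hq0 := qv_bounds ht
  have hbpos : 0 < bv t := by linarith [hb.1]
  have hqpos : 0 < qv t := by linarith [hq0.1]
  have h := typeB_ineq ht0 hbpos x y z hxy hxz hyz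
  rw [K1_half ht, K4_half ht, ← hq] at h
  have e1 : 1 / qv t * qv t ^ 2 = qv t := by field_simp
  have e2 : 3 / (4 * bv t) = 3 / (4 * t * yv t) := by unfold bv; ring_nf
  rw [e1, e2] at h
  rw [← hq]
  unfold Gv
  linarith

theorem pat034 {x y z : E3} (hx : x ∈ Kb 0) (hy : y ∈ Kb 3) (hz : z ∈ Kb 4) :
    vv 0 x + vv 3 y + vv 4 z ≤ coulomb (x, y, z) + 6 := by
  have nx := norm_Kb0 hx
  have ny := norm_Kb3 hy
  have nz := norm_Kb4 hz
  have hxy : x ≠ y := ne_of_mem_Kb (by decide) hx hy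
  have hxz : x ≠ z := ne_of_mem_Kb (by decide) hx hz
  have hyz : y ≠ z := ne_of_mem_Kb (by decide) hy hz
  obtain ⟨t, ht, hq⟩ := exists_param hx
  have ha : 0 ≤ c1 - 2 * ‖x‖ + 2 := by unfold c1; linarith [nx.2]
  have hb := q4_shift_nonneg ht (norm_nonneg y) ny.2
  have hc := q4_shift_nonneg ht (norm_nonneg z) nz.2
  have hS : 0 ≤ 1 / dist x y + 1 / dist x z + 1 / dist y z := by positivity
  rw [coulomb_eq hxy hxz hyz]
  refine le_trans ?_ (transfer_le ha hb hc hS (typeB_real ht hq hxy hxz hyz))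
  have h3 : vv 3 y ≤ _ := genv_le ht (‖y‖ ^ 2)
  have h4 : vv 4 z ≤ _ := genv_le ht (‖z‖ ^ 2)
  exact add_le_add (add_le_add le_rfl h3) h4

end Vale.Agent.Lib.P121
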