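import Vale.Agent.Lib.P121.Blobs

open MeasureTheory Set Metric
open scoped ENNReal

namespace Vale.Agent.Lib.P121

/-- upper bounds for the distances between points of two blobs -/
noncomputable def Dm : Fin 5 → Fin 5 → ℝ
  | 0, 0 => 0.02 | 0, 1 => 0.7259 | 0, 2 => 12.02 | 0, 3 => 0.845 | 0, 4 => 0.845
  | 1, 0 => 0.7259 | 1, 1 => 0.02 | 1, 2 => 12.7259 | 1, 3 => 0.6415 | 1, 4 => 0.6415
  | 2, 0 => 12.02 | 2, 1 => 12.7259 | 2, 2 => 0.02 | 2, 3 => 12.5961 | 2, 4 => 12.5961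
  | 3, 0 => 0.845 | 3, 1 => 0.6415 | 3, 2 => 12.5961 | 3, 3 => 0.02 | 3, 4 => 1.2288
  | 4, 0 => 0.845 | 4, 1 => 0.6415 | 4, 2 => 12.5961 | 4, 3 => 1.2288 | 4, 4 => 0.02

/-- upper bounds for the (unshifted) potentials on the blobs -/
noncomputable def ub : Fin 5 → ℝ
  | 0 => 1.4036 | 1 => 1.5484 | 2 => -1.3329 | 3 => 0.9544 | 4 => 0.9544

theorem dist_vec3 (a b c a' b' c' : ℝ) :
    dist (!₂[a, b, c] : E3) !₂[a', b', c'] = Real.sqrt ((a - a') ^ 2 + (b - b') ^ 2 + (c - c') ^ 2) := by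
  rw [EuclideanSpace.dist_eq]
  simp [Fin.sum_univ_three, Real.dist_eq, sq_abs]

theorem norm_vec3 (a b c : ℝ) :
    ‖(!₂[a, b, c] : E3)‖ = Real.sqrt (a ^ 2 + b ^ 2 + c ^ 2) := by
  rw [EuclideanSpace.norm_eq]
  simp [Fin.sum_univ_three, sq_abs]

theorem dist_cen_le (i j : Fin 5) : dist (cen i) (cen j) + 0.02 ≤ Dm i j := by
  fin_cases i <;> fin_cases j <;>
  · simp only [cen, Dm, dist_vec3]
    rw [← le_sub_iff_add_le]
    apply Real.sqrt_le_iff.mpr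
    constructor <;> norm_num

theorem dist_le_Dm {i j : Fin 5} {x y : E3} (hx : x ∈ Kb i) (hy : y ∈ Kb j) :
    dist x y ≤ Dm i j := by
  have h1 : dist x (cen i) ≤ 0.01 := mem_closedBall.mp (Kb_subset_ball i hx)
  have h2 : dist y (cen j) ≤ 0.01 := mem_closedBall.mp (Kb_subset_ball j hy)
  have h3 := dist_cen_le i j
  have h4 : dist x y ≤ dist x (cen i) + dist (cen i) (cen j) + dist (cen j) y :=
    dist_triangle4 _ _ _ _
  rw [dist_comm (cen j) y] at h4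
  linarith

theorem Dm_pos (i j : Fin 5) : 0 < Dm i j := by
  fin_cases i <;> fin_cases j <;> simp only [Dm] <;> norm_num

theorem ub_shift_nonneg (i : Fin 5) : 0 ≤ ub i + 2 := by
  fin_cases i <;> simp only [ub] <;> norm_num

end Vale.Agent.Lib.P121
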