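import Vale.Agent.Lib.P121.Tables

open MeasureTheory Set Metric
open scoped ENNReal

namespace Vale.Agent.Lib.P121

theorem measurable_coulomb : Measurable coulomb := by
  unfold coulomb
  fun_prop

theorem coulomb_swap12 (x y z : E3) : coulomb (y, x, z) = coulomb (x, y, z) := by
  simp only [coulomb, edist_comm y x]
  ring

theorem coulomb_swap23 (x y z : E3) : coulomb (x, z, y) = coulomb (x, y, z) := by
  simp only [coulomb, edist_comm z y]
  ring

theorem coulomb_rot (x y z : E3) : coulomb (y, z, x) = coulomb (x, y, z) := by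
  rw [coulomb_swap23, coulomb_swap12]

theorem coulomb_rot' (x y z : E3) : coulomb (z, x, y) = coulomb (x, y, z) := by
  rw [coulomb_swap12, coulomb_swap23]

theorem coulomb_rev (x y z : E3) : coulomb (z, y, x) = coulomb (x, y, z) := by
  rw [coulomb_swap12, coulomb_rot]

theorem inv_edist_eq {x y : E3} (h : x ≠ y) : (edist x y)⁻¹ = ENNReal.ofReal (1 / dist x y) := by
  rw [edist_dist, one_div, ENNReal.ofReal_inv_of_pos (dist_pos.mpr h)]

theorem coulomb_eq {x y z : E3} (hxy : x ≠ y) (hxz : x ≠ z) (hyz : y ≠ z) :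
    coulomb (x, y, z) = ENNReal.ofReal (1 / dist x y + 1 / dist x z + 1 / dist y z) := by
  have h1 : 0 ≤ 1 / dist x y := by positivity
  have h2 : 0 ≤ 1 / dist x z := by positivity
  have h3 : 0 ≤ 1 / dist y z := by positivity
  simp only [coulomb]
  rw [inv_edist_eq hxy, inv_edist_eq hxz, inv_edist_eq hyz, ENNReal.ofReal_add (by positivity) h3,
    ENNReal.ofReal_add h1 h2]

theorem inv_edist_ge {x y : E3} {D : ℝ} (hD : 0 < D) (h : dist x y ≤ D) :
    ENNReal.ofReal (1 / D) ≤ (edist x y)⁻¹ := by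
  rw [one_div, ENNReal.ofReal_inv_of_pos hD, ENNReal.inv_le_inv, edist_dist]
  exact ENNReal.ofReal_le_ofReal h

theorem six_eq : (6 : ℝ≥0∞) = ENNReal.ofReal 6 := by
  simp

/-- transfer of a real inequality between shifted potentials and the cost -/
theorem transfer_le {a b c S : ℝ} (ha : 0 ≤ a + 2) (hb : 0 ≤ b + 2) (hc : 0 ≤ c + 2) (hS : 0 ≤ S)
    (h : a + b + c ≤ S) :
    ENNReal.ofReal (a + 2) + ENNReal.ofReal (b + 2) + ENNReal.ofReal (c + 2)
      ≤ ENNReal.ofReal S + 6 := by
  rw [six_eq, ← ENNReal.ofReal_add ha hb, ← ENNReal.ofReal_add (by linarith) hc,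
    ← ENNReal.ofReal_add hS (by norm_num)]
  exact ENNReal.ofReal_le_ofReal (by linarith)

theorem transfer_eq {a b c S : ℝ} (ha : 0 ≤ a + 2) (hb : 0 ≤ b + 2) (hc : 0 ≤ c + 2) (hS : 0 ≤ S) :
    ENNReal.ofReal (a + 2) + ENNReal.ofReal (b + 2) + ENNReal.ofReal (c + 2)
      = ENNReal.ofReal S + 6 ↔ a + b + c = S := by
  rw [six_eq, ← ENNReal.ofReal_add ha hb, ← ENNReal.ofReal_add (by linarith) hc,
    ← ENNReal.ofReal_add hS (by norm_num),
    ENNReal.ofReal_eq_ofReal_iff (by linarith) (by linarith)]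
  constructor <;> intro h <;> linarith

/-- the crude bound -/
theorem crude_lt {i j k : Fin 5} {x y z : E3} (hx : x ∈ Kb i) (hy : y ∈ Kb j) (hz : z ∈ Kb k)
    {vx vy vz : ℝ≥0∞} (hvx : vx ≤ ENNReal.ofReal (ub i + 2)) (hvy : vy ≤ ENNReal.ofReal (ub j + 2))
    (hvz : vz ≤ ENNReal.ofReal (ub k + 2))
    (h : ub i + ub j + ub k < 1 / Dm i j + 1 / Dm i k + 1 / Dm j k) :
    vx + vy + vz < coulomb (x, y, z) + 6 := by
  have p1 : 0 ≤ 1 / Dm i j := by have := Dm_pos i j; positivity
  have p2 : 0 ≤ 1 / Dm i k := by have := Dm_pos i k; positivity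
  have p3 : 0 ≤ 1 / Dm j k := by have := Dm_pos j k; positivity
  calc vx + vy + vz ≤ ENNReal.ofReal (ub i + 2) + ENNReal.ofReal (ub j + 2)
        + ENNReal.ofReal (ub k + 2) := by gcongr
    _ = ENNReal.ofReal (ub i + ub j + ub k + 6) := by
        rw [← ENNReal.ofReal_add (ub_shift_nonneg i) (ub_shift_nonneg j),
          ← ENNReal.ofReal_add (by have := ub_shift_nonneg i; have := ub_shift_nonneg j; linarith)
            (ub_shift_nonneg k)]
        congr 1; ring
    _ < ENNReal.ofReal (1 / Dm i j + 1 / Dm i k + 1 / Dm j k + 6) := by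
        apply (ENNReal.ofReal_lt_ofReal_iff (by positivity)).mpr
        linarith
    _ = ENNReal.ofReal (1 / Dm i j) + ENNReal.ofReal (1 / Dm i k) + ENNReal.ofReal (1 / Dm j k)
          + 6 := by
        rw [six_eq, ← ENNReal.ofReal_add p1 p2, ← ENNReal.ofReal_add (by positivity) p3,
          ← ENNReal.ofReal_add (by positivity) (by norm_num)]
    _ ≤ coulomb (x, y, z) + 6 := by
        simp only [coulomb]
        gcongr
        · exact inv_edist_ge (Dm_pos i j) (dist_le_Dm hx hy)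
        · exact inv_edist_ge (Dm_pos i k) (dist_le_Dm hx hz)
        · exact inv_edist_ge (Dm_pos j k) (dist_le_Dm hy hz)

end Vale.Agent.Lib.P121
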